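import Vale.Agent.P176.Win

/- Projective dimension and Ext computations for the induced objects. -/

namespace Vale.Agent.P176

open CategoryTheory

universe u

variable {K : Type u} [Field K]

def stepF {V : Type u} [AddCommGroup V] [Module K V] (W : Submodule K V) (d : ℕ) (n : ℤ) :
    Submodule K V := if (d : ℤ) ≤ n then W else ⊥

theorem stepF_mono {V : Type u} [AddCommGroup V] [Module K V] (W : Submodule K V) (d : ℕ)
    (n : ℤ) : stepF W d n ≤ stepF W d (n + 1) := by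
  unfold stepF
  split_ifs with h1 h2
  · exact le_rfl
  · omega
  · exact bot_le
  · exact le_rfl

theorem stepF_ge {V : Type u} [AddCommGroup V] [Module K V] (W : Submodule K V) {d : ℕ}
    {n : ℤ} (h : (d : ℤ) ≤ n) : stepF W d n = W := if_pos h

theorem stepF_lt {V : Type u} [AddCommGroup V] [Module K V] (W : Submodule K V) {d : ℕ}
    {n : ℤ} (h : n < d) : stepF W d n = ⊥ := if_neg (by omega)

@[reducible] def T0obj {V : Type u} [AddCommGroup V] [Module K V] (W : Submodule K V) (d : ℕ) :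
    LObj K 0 := triv0 V (stepF W d) (stepF_mono W d)

variable (K) in
@[reducible] def ZL : LObj K 4 where
  X := K
  op := fun _ => 0
  F := stepF ⊤ 4
  mono := stepF_mono ⊤ 4
  comp := fun _ _ _ _ _ => Submodule.zero_mem _
  rel := fun _ _ _ _ _ => by simp

variable (K) in
noncomputable def SS : ModuleCat.{u} (AA K) := WinM (infl (ZL K))

section KD

variable (d : Fin 5)

theorem ex_pi : ∃ π, GHom (PP K) (Psi (T0obj (⊤ : Submodule K K) d)) π ∧
    ∀ e, π (gen e) = inc4 (T0obj (⊤ : Submodule K K) d) (if e = d then (1 : K) else 0) := by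
  refine PP_ex _ _ fun e => inc4_mem _ ?_
  split_ifs with h
  · subst h
    change _ ∈ stepF _ _ _
    rw [stepF_ge _ le_rfl]
    trivial
  · exact Submodule.zero_mem _

theorem ex_K (Z : GObj K) (z : Z.L.X) (hz : z ∈ Z.L.F (d : ℕ)) :
    ∃ ι, GHom (Psi (T0obj (⊤ : Submodule K K) d)) Z ι ∧
      ι (inc4 (T0obj (⊤ : Submodule K K) d) (1 : K)) = z := by
  obtain ⟨ι, h1, h2⟩ := psi_ex (T0obj (⊤ : Submodule K K) d) Z
    (LinearMap.toSpanSingleton K _ z) (fun n y hy => by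
      by_cases h : ((d : ℕ) : ℤ) ≤ n
      · exact Submodule.smul_mem _ _ (Z.L.mono' h hz)
      · change y ∈ stepF _ _ _ at hy
        rw [stepF_lt _ (by omega), Submodule.mem_bot] at hy
        rw [hy, map_zero]
        exact Submodule.zero_mem _)
  exact ⟨ι, h1, (h2 _).trans (one_smul _ _)⟩

theorem uniq_K {Z : GObj K} {φ : (Psi (T0obj (⊤ : Submodule K K) d)).L.X →ₗ[K] Z.L.X}
    (h : GHom (Psi (T0obj (⊤ : Submodule K K) d)) Z φ)
    (h0 : φ (inc4 (T0obj (⊤ : Submodule K K) d) (1 : K)) = 0) : φ = 0 := by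
  refine psi_uniq h fun y => ?_
  have : (φ ∘ₗ inc4l (T0obj (⊤ : Submodule K K) d) : K →ₗ[K] Z.L.X) = 0 := LinearMap.ext_ring h0
  exact LinearMap.congr_fun this y

theorem ex_retract : ∃ π ι, GHom (PP K) (Psi (T0obj (⊤ : Submodule K K) d)) π ∧
    GHom (Psi (T0obj (⊤ : Submodule K K) d)) (PP K) ι ∧ π ∘ₗ ι = LinearMap.id ∧
    π (gen d) = inc4 (T0obj (⊤ : Submodule K K) d) (1 : K) := by
  obtain ⟨π, h1, h2⟩ := ex_pi (K := K) d
  obtain ⟨ι, h3, h4⟩ := ex_K d (PP K) (gen d) (gen_mem d)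
  have h5 := h2 d
  rw [if_pos rfl] at h5
  refine ⟨π, ι, h1, h3, ?_, h5⟩
  rw [← sub_eq_zero]
  refine uniq_K d ((HomS _ _).sub_mem (h1.comp h3) (GHom.id _)) ?_
  rw [LinearMap.sub_apply, LinearMap.comp_apply, h4, h5, LinearMap.id_apply, sub_self]

theorem pd_K : PD (WinM (Psi (T0obj (⊤ : Submodule K K) d))) 1 := by
  obtain ⟨π, ι, h1, h2, h3, -⟩ := ex_retract (K := K) d
  have := pd_PP (K := K)
  refine Retract.hasProjectiveDimensionLT (Y := WinM (PP K))
    ⟨ModuleCat.ofHom (wmap h2), ModuleCat.ofHom (wmap h1), ?_⟩ 1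
  ext φ
  refine Win.ext ?_
  change π ∘ₗ (ι ∘ₗ _) = _
  rw [← LinearMap.comp_assoc, h3]
  rfl

theorem ze_K (hd : (d : ℕ) < 4) : ZE (SS K) (WinM (Psi (T0obj (⊤ : Submodule K K) d))) := by
  obtain ⟨π, ι, h1, h2, h3, -⟩ := ex_retract (K := K) d
  refine ze_of_pd (pd_K d) fun θ => ?_
  ext φ
  let θ' : Win (Psi (T0obj (⊤ : Submodule K K) d)) →ₗ[AA K] Win (infl (ZL K)) := θ.hom
  let φ' : Win (Psi (T0obj (⊤ : Submodule K K) d)) := φ
  change θ' φ' = 0
  have e1 : φ' = (MulOpposite.op ⟨ι ∘ₗ φ'.val, h2.comp φ'.hom⟩ : AA K) • Win.mk π h1 := by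
    refine Win.ext ?_
    change _ = π ∘ₗ (ι ∘ₗ _)
    rw [← LinearMap.comp_assoc, h3]
    rfl
  have e2 : (θ' (Win.mk π h1)).val ∘ₗ ι = 0 := by
    refine uniq_K d ((θ' (Win.mk π h1)).hom.comp h2) ?_
    have := ((θ' (Win.mk π h1)).hom.comp h2).l.filt (d : ℕ) _
      (inc4_mem (T0obj (⊤ : Submodule K K) d) (y := (1 : K)) (by
        change _ ∈ stepF _ _ _
        rw [stepF_ge _ le_rfl]
        trivial))
    change _ ∈ stepF _ _ _ at this
    rwa [stepF_lt _ (by omega), Submodule.mem_bot] at this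
  rw [e1, map_smul]
  refine Win.ext ?_
  change _ ∘ₗ (ι ∘ₗ _) = 0
  rw [← LinearMap.comp_assoc, e2, LinearMap.zero_comp]

theorem ne_K (hd : (d : ℕ) = 4) : NE (SS K) (WinM (Psi (T0obj (⊤ : Submodule K K) d))) 0 := by
  obtain ⟨π, ι, h1, h2, h3, h4⟩ := ex_retract (K := K) d
  obtain ⟨ψ, h5, h6⟩ := ex_K d (infl (ZL K)) (1 : K) (by
    change _ ∈ stepF _ _ _
    rw [stepF_ge _ (by omega)]
    trivial)
  refine ne_of_hom (ModuleCat.ofHom (wmap h5)) fun h0 => ?_
  have h7 : wmap h5 = 0 := congrArg ModuleCat.Hom.hom h0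
  have h8 := LinearMap.congr_fun (congrArg Win.val (LinearMap.congr_fun h7 (Win.mk π h1))) (gen d)
  change ψ (π (gen d)) = 0 at h8
  rw [h4, h6] at h8
  exact one_ne_zero h8

end KD

def AllBot {j : ℕ} (Y : LObj K j) : Prop := ∀ n, ∀ x ∈ Y.F n, x = 0

theorem AllBot.ind {j : ℕ} {Y : LObj K j} (h : AllBot Y) : AllBot (Ind Y) := by
  intro n p hp
  ext a
  exact h _ _ (hp a)

theorem AllBot.hat {Y : LObj K 4} (h : AllBot Y) : AllBot (hatL Y) := by
  rintro n ⟨c, x⟩ ⟨⟨y, hy, h1⟩, h2⟩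
  have : y = 0 := Prod.ext (h _ _ hy.1) (h _ _ hy.2)
  rw [this, map_zero] at h1
  exact Prod.ext h1.symm (h _ _ h2)

def ExactF {j : ℕ} (Φ : LObj K j → ModuleCat.{u} (AA K)) : Prop :=
  ∀ ⦃Y1 Y2 Y3 : LObj K j⦄ ⦃f : Y1.X →ₗ[K] Y2.X⦄ ⦃g : Y2.X →ₗ[K] Y3.X⦄,
    LSES Y1 Y2 Y3 f g → SE (Φ Y1) (Φ Y2) (Φ Y3)

theorem ExactF.ind {j : ℕ} {Φ : LObj K (j + 1) → ModuleCat.{u} (AA K)} (h : ExactF Φ) :
    ExactF fun Y => Φ (Ind Y) := fun _ _ _ _ _ hs => h hs.ind

noncomputable def Phi3 (Y : LObj K 3) : ModuleCat.{u} (AA K) := WinM (hat (Ind Y))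

theorem exact_Phi3 : ExactF (Phi3 (K := K)) := fun _ _ _ _ _ hs =>
  win_se (hmap_hom hs.ind.hf) (hmap_hom hs.ind.hg) fun n _ =>
    hs.ind.hat (tgood_ind _) (tgood_ind _) n

def Good {j : ℕ} (Φ : LObj K j → ModuleCat.{u} (AA K)) : Prop :=
  ∀ (Y : LObj K j) (W : Submodule K Y.X) (d : ℕ), FiniteDimensional K W → Y.F = stepF W d →
    d + j ≤ 4 → PD (Φ Y) (j + 1) ∧ (d + j < 4 → ZE (SS K) (Φ Y)) ∧
      (d + j = 4 → W ≠ ⊥ → NE (SS K) (Φ Y) j)

theorem tw_F {j : ℕ} {Y : LObj K (j + 1)} {W : Submodule K Y.X} {d : ℕ} (h : Y.F = stepF W d) :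
    (tw Y).F = stepF W (d + 1) := by
  funext n
  change Y.F (n - 1) = _
  rw [h]
  unfold stepF
  congr 1
  push_cast
  exact propext (by omega)

theorem Good.step {j : ℕ} {Φ : LObj K (j + 1) → ModuleCat.{u} (AA K)} (hΦ : ExactF Φ)
    (h : Good fun Y => Φ (Ind Y)) : Good Φ := by
  intro Y W d hW hF hd
  have s := hΦ (fund Y)
  obtain ⟨a1, a2, a3⟩ := h (tw Y) W (d + 1) hW (tw_F hF) (by omega)
  obtain ⟨b1, b2, b3⟩ := h (res Y) W d hW hF (by omega)
  exact ⟨s.pd3 a1 (b1.mono (by omega)), fun hlt => s.ze3 (a2 (by omega)) (b2 (by omega)),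
    fun heq hne => s.ne3 (a3 (by omega) hne) (b2 (by omega))⟩

theorem good0 : Good fun Y : LObj K 0 => Phi3 (Ind (Ind (Ind Y))) := by
  have hex : ExactF fun Y : LObj K 0 => Phi3 (Ind (Ind (Ind Y))) := exact_Phi3.ind.ind.ind
  intro Y W d hW hF hd
  induction hm : Module.finrank K W using Nat.strong_induction_on generalizing Y with
  | _ m ih =>
  by_cases hW0 : W = ⊥
  · have hb : AllBot Y := by
      intro n x hx
      rw [hF, hW0] at hx
      unfold stepF at hx
      simpa using hx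
    have : Subsingleton (Phi3 (Ind (Ind (Ind Y)))) :=
      win_subsingleton (Z := Psi Y) hb.ind.ind.ind.ind.hat
    exact ⟨pd_zero.mono (by omega), fun _ => ze_zero, fun _ h => absurd hW0 h⟩
  · obtain ⟨w, hw, hw0⟩ := Submodule.exists_mem_ne_zero_of_ne_bot hW0
    obtain ⟨l, hl⟩ := Module.Projective.exists_dual_eq_one K hw0
    have hW' : FiniteDimensional K (W ⊓ LinearMap.ker l : Submodule K Y.X) :=
      Submodule.finiteDimensional_inf_left _ _
    have hm' : Module.finrank K (W ⊓ LinearMap.ker l : Submodule K Y.X) < m := by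
      rw [← hm]
      refine Submodule.finrank_lt_finrank_of_lt (lt_of_le_of_ne inf_le_left fun h => ?_)
      rw [← h] at hw
      have := hw.2
      rw [SetLike.mem_coe, LinearMap.mem_ker, hl] at this
      exact one_ne_zero this
    obtain ⟨a1, a2, -⟩ :=
      ih _ hm' (T0obj (W ⊓ LinearMap.ker l) d) (W ⊓ LinearMap.ker l) hW' rfl rfl
    have hs : LSES (T0obj (W ⊓ LinearMap.ker l) d) Y (T0obj (⊤ : Submodule K K) d)
        LinearMap.id l := by
      refine ⟨⟨fun i hi => absurd hi (by omega), fun n x hx => ?_⟩,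
        ⟨fun i hi => absurd hi (by omega), fun n x hx => ?_⟩, fun n => ?_⟩
      · rw [hF]
        change x ∈ stepF _ _ _ at hx
        by_cases h : (d : ℤ) ≤ n
        · rw [stepF_ge _ h] at hx ⊢
          exact hx.1
        · rw [stepF_lt _ (by omega)] at hx ⊢
          exact hx
      · rw [hF] at hx
        change _ ∈ stepF _ _ _
        by_cases h : (d : ℤ) ≤ n
        · rw [stepF_ge _ h]
          trivial
        · rw [stepF_lt _ (by omega), Submodule.mem_bot] at hx ⊢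
          rw [hx, map_zero]
      · rw [hF]
        change PieceExact (stepF _ _ _) _ (stepF _ _ _) _ _
        by_cases h : (d : ℤ) ≤ n
        · rw [stepF_ge _ h, stepF_ge _ h, stepF_ge _ h]
          exact ⟨fun x _ h => h, fun x hx => hx.2, fun y hy h0 => ⟨y, ⟨hy, h0⟩, rfl⟩,
            fun z _ => ⟨z • w, W.smul_mem _ hw, by simp [hl]⟩⟩
        · rw [stepF_lt _ (by omega), stepF_lt _ (by omega), stepF_lt _ (by omega)]
          exact ⟨fun x _ h => h, fun x hx => by simp_all, fun y hy h0 => ⟨y, hy, rfl⟩,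
            fun z hz => ⟨0, Submodule.zero_mem _, by simp_all⟩⟩
    have s := hex hs
    let d' : Fin 5 := ⟨d, by omega⟩
    exact ⟨s.pd2 a1 (pd_K d'), fun hlt => s.ze2 (a2 hlt) (ze_K d' hlt),
      fun heq _ => s.ne2 (ne_K d' heq)⟩

theorem good3 : Good (Phi3 (K := K)) :=
  Good.step exact_Phi3 (Good.step exact_Phi3.ind (Good.step exact_Phi3.ind.ind good0))

structure FinP {j : ℕ} (Y : LObj K j) : Prop where
  fin : ∀ n, FiniteDimensional K (Y.F n)
  neg : ∀ n < 0, ∀ x ∈ Y.F n, x = 0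

theorem FinP.ind {j : ℕ} {Y : LObj K j} (h : FinP Y) : FinP (Ind Y) where
  fin := fun n => by
    have := h.fin
    let e : indF Y n →ₗ[K] (∀ a : Fin (n.toNat + 1), Y.F (n - (a : ℕ))) :=
      { toFun := fun p a => ⟨p.1 a, p.2 a⟩
        map_add' := fun _ _ => rfl
        map_smul' := fun _ _ => rfl }
    refine FiniteDimensional.of_injective e ?_
    rw [injective_iff_map_eq_zero]
    intro p h0
    ext a
    by_cases ha : a < n.toNat + 1
    · exact congrArg Subtype.val (congrFun h0 ⟨a, ha⟩)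
    · exact h.neg _ (by omega) _ (p.2 a)
  neg := fun n hn p hp => by
    ext a
    exact h.neg _ (by omega) _ (hp a)

theorem hat_fin {Y : LObj K 4} (h : ∀ n, FiniteDimensional K (Y.F n)) (n : ℤ) :
    FiniteDimensional K (hatF Y n) := by
  have h' : ∀ n, (Y.F n).FG := fun n => Module.Finite.iff_fg.1 (h n)
  exact Module.Finite.iff_fg.2 ((((h' _).prod (h' _)).map _).prod (h' _))

theorem finP_Y0 : FinP (Y0 K) where
  fin := fun n => by
    have : FiniteDimensional K (Y0 K).X := inferInstanceAs (FiniteDimensional K (Fin 5 → K))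
    infer_instance
  neg := fun n hn x hx => funext fun d => hx d (by omega)

theorem fin_AA : FiniteDimensional K (AA K) := by
  have : FiniteDimensional K (Win (PP K)) :=
    win_finite (Z := PP K) (hat_fin finP_Y0.ind.ind.ind.ind.fin)
  exact FiniteDimensional.of_injective (winPP.toLinearMap.restrictScalars K) winPP.injective

end Vale.Agent.P176
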