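import Mathlib

/- Homological bookkeeping: short exact sequences of modules, vanishing and nonvanishing of Ext. -/

namespace Vale.Agent.P176

open CategoryTheory Abelian

universe u

variable {A : Type u} [Ring A]

def SE (M1 M2 M3 : ModuleCat.{u} A) : Prop :=
  ∃ (f : M1 ⟶ M2) (g : M2 ⟶ M3) (w : f ≫ g = 0), (ShortComplex.mk f g w).ShortExact

def ZE (S M : ModuleCat.{u} A) : Prop := ∀ (i : ℕ) (x : Ext.{u} M S i), x = 0

def NE (S M : ModuleCat.{u} A) (j : ℕ) : Prop := ∃ x : Ext.{u} M S j, x ≠ 0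

abbrev PD (M : ModuleCat.{u} A) (n : ℕ) : Prop := HasProjectiveDimensionLT M n

variable {S M1 M2 M3 : ModuleCat.{u} A}

theorem SE.pd1 (h : SE M1 M2 M3) {n : ℕ} (h2 : PD M2 n) (h3 : PD M3 (n + 1)) : PD M1 n := by
  obtain ⟨f, g, w, hS⟩ := h
  exact hS.hasProjectiveDimensionLT_X₁ n h2 h3

theorem SE.pd2 (h : SE M1 M2 M3) {n : ℕ} (h1 : PD M1 n) (h3 : PD M3 n) : PD M2 n := by
  obtain ⟨f, g, w, hS⟩ := h
  exact hS.hasProjectiveDimensionLT_X₂ n h1 h3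

theorem SE.pd3 (h : SE M1 M2 M3) {n : ℕ} (h1 : PD M1 n) (h2 : PD M2 (n + 1)) :
    PD M3 (n + 1) := by
  obtain ⟨f, g, w, hS⟩ := h
  exact hS.hasProjectiveDimensionLT_X₃ n h1 h2

theorem PD.mono {M : ModuleCat.{u} A} {n m : ℕ} (h : PD M n) (hm : n ≤ m) : PD M m :=
  hasProjectiveDimensionLT_of_ge M n m hm

theorem SE.ze2 (h : SE M1 M2 M3) (h1 : ZE S M1) (h3 : ZE S M3) : ZE S M2 := by
  obtain ⟨f, g, w, hS⟩ := h
  intro i x
  obtain ⟨x₃, rfl⟩ := Ext.contravariant_sequence_exact₂ hS _ x (h1 _ _)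
  rw [h3 _ x₃, Ext.comp_zero]

theorem SE.ze3 (h : SE M1 M2 M3) (h1 : ZE S M1) (h2 : ZE S M2) : ZE S M3 := by
  obtain ⟨f, g, w, hS⟩ := h
  rintro (_ | i) x
  · have := hS.epi_g
    apply Ext.precomp_mk₀_injective_of_epi S g
    rw [map_zero]
    exact h2 _ _
  · obtain ⟨x₁, rfl⟩ := Ext.contravariant_sequence_exact₃ hS _ x (h2 _ _) (add_comm _ _)
    rw [h1 _ x₁, Ext.comp_zero]

theorem SE.ne3 (h : SE M1 M2 M3) {j : ℕ} (h1 : NE S M1 j) (h2 : ZE S M2) : NE S M3 (j + 1) := by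
  obtain ⟨f, g, w, hS⟩ := h
  obtain ⟨x, hx⟩ := h1
  refine ⟨hS.extClass.comp x (add_comm _ _), fun h0 => hx ?_⟩
  obtain ⟨x₂, rfl⟩ := Ext.contravariant_sequence_exact₁ hS _ x (add_comm _ _) h0
  rw [h2 _ x₂, Ext.comp_zero]

theorem SE.ne3' (h : SE M1 M2 M3) {j : ℕ} (h1 : ZE S M1) (h2 : NE S M2 j) : NE S M3 j := by
  obtain ⟨f, g, w, hS⟩ := h
  obtain ⟨x, hx⟩ := h2
  obtain ⟨x₃, rfl⟩ := Ext.contravariant_sequence_exact₂ hS _ x (h1 _ _)
  refine ⟨x₃, fun h0 => hx ?_⟩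
  rw [h0, Ext.comp_zero]

theorem SE.ne2 (h : SE M1 M2 M3) (h3 : NE S M3 0) : NE S M2 0 := by
  obtain ⟨f, g, w, hS⟩ := h
  obtain ⟨x, hx⟩ := h3
  have := hS.epi_g
  refine ⟨(Ext.mk₀ g).precomp S (zero_add 0) x, fun h0 => hx ?_⟩
  apply Ext.precomp_mk₀_injective_of_epi S g
  rw [h0, map_zero]

theorem NE.not_pd {M : ModuleCat.{u} A} {j : ℕ} (h : NE S M j) : ¬ PD M j := by
  intro hp
  obtain ⟨x, hx⟩ := h
  exact hx (x.eq_zero_of_hasProjectiveDimensionLT j le_rfl)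

theorem ze_of_pd {M : ModuleCat.{u} A} (hp : PD M 1) (h0 : ∀ f : M ⟶ S, f = 0) : ZE S M := by
  rintro (_ | i) x
  · obtain ⟨f, rfl⟩ := (Ext.mk₀_bijective M S).2 x
    rw [h0 f, Ext.mk₀_zero]
  · exact x.eq_zero_of_hasProjectiveDimensionLT 1 (by omega)

theorem ne_of_hom {M : ModuleCat.{u} A} (f : M ⟶ S) (hf : f ≠ 0) : NE S M 0 :=
  ⟨Ext.mk₀ f, fun h => hf ((Ext.mk₀_eq_zero_iff f).1 h)⟩

theorem pd_zero {M : ModuleCat.{u} A} [Subsingleton M] : PD M 0 :=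
  (ModuleCat.isZero_of_subsingleton M).hasProjectiveDimensionLT_zero

theorem ze_zero {M : ModuleCat.{u} A} [Subsingleton M] : ZE S M := by
  intro i x
  have : HasProjectiveDimensionLT M 0 := pd_zero
  exact x.eq_zero_of_hasProjectiveDimensionLT 0 (Nat.zero_le _)

/-- The growth argument. -/
theorem growth (M : ℕ → ModuleCat.{u} A) (S : ModuleCat.{u} A) (h0 : Subsingleton (M 0))
    (hstep : ∀ n, ∃ P' P I H : ModuleCat.{u} A, SE (M n) P' I ∧ SE I P H ∧ SE (M n) H (M (n + 1)) ∧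
      PD P' 4 ∧ PD P 4 ∧ NE S P' 3 ∧ ZE S P) (n : ℕ) :
    (∃ q, PD (M (n + 1)) q) ∧ ¬ PD (M (n + 1)) (n + 4) := by
  have hfin : ∀ n, ∃ q, PD (M n) q := by
    intro n
    induction n with
    | zero => exact ⟨0, pd_zero⟩
    | succ n ih =>
      obtain ⟨q, hq⟩ := ih
      obtain ⟨P', P, I, H, s1, s2, s3, p1, p2, -, -⟩ := hstep n
      have hI : PD I (q + 4 + 1) := s1.pd3 (hq.mono (by omega)) (p1.mono (by omega))
      have hH : PD H (q + 4 + 1 + 1) := s2.pd3 hI (p2.mono (by omega))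
      exact ⟨q + 4 + 1 + 1, s3.pd3 (hq.mono (by omega)) hH⟩
  refine ⟨hfin _, ?_⟩
  induction n with
  | zero =>
    obtain ⟨P', P, I, H, s1, s2, s3, -, -, n1, z2⟩ := hstep 0
    have hI := s1.ne3' ze_zero n1
    have hH := s2.ne3 hI z2
    exact (s3.ne3' ze_zero hH).not_pd
  | succ n ih =>
    intro hp
    obtain ⟨P', P, I, H, s1, s2, s3, p1, p2, -, -⟩ := hstep (n + 1)
    classical
    have hq := Nat.find_spec (hfin (n + 1))
    have hmin := fun m => Nat.find_min (hfin (n + 1)) (m := m)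
    set q := Nat.find (hfin (n + 1)) with hqdef
    have hq5 : n + 4 < q := by
      by_contra hc
      exact ih (hq.mono (by omega))
    obtain ⟨r, hr⟩ : ∃ r, q = r + 1 := ⟨q - 1, by omega⟩
    have hH : PD H (r + 1 + 1) := s3.pd2 (hq.mono (by omega)) (hp.mono (by omega))
    have hI : PD I (r + 1) := s2.pd1 (p2.mono (by omega)) hH
    have hM : PD (M (n + 1)) r := s1.pd1 (p1.mono (by omega)) hI
    exact hmin r (by omega) hM

end Vale.Agent.P176
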