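import Vale.Agent.P176.Base

/- The finite-dimensional representations and the three short exact sequences. -/

namespace Vale.Agent.P176

open CategoryTheory

universe u

variable {K : Type u} [Field K]

def hop (a : K) : (ℕ → K) →ₗ[K] (ℕ → K) where
  toFun := fun p i => (2 * (i : K) - a) * p i
  map_add' := fun p q => by ext i; simp only [Pi.add_apply]; ring
  map_smul' := fun c p => by ext i; simp only [Pi.smul_apply, smul_eq_mul, RingHom.id_apply]; ring

def ush : (ℕ → K) →ₗ[K] (ℕ → K) where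
  toFun := fun p i => Nat.casesOn i 0 p
  map_add' := fun p q => by ext (_ | i) <;> simp
  map_smul' := fun c p => by ext (_ | i) <;> simp

def wop (a : K) : (ℕ → K) →ₗ[K] (ℕ → K) where
  toFun := fun p i => (a - (i : K)) * p i
  map_add' := fun p q => by ext i; simp only [Pi.add_apply]; ring
  map_smul' := fun c p => by ext i; simp only [Pi.smul_apply, smul_eq_mul, RingHom.id_apply]; ring

def fop : (ℕ → K) →ₗ[K] (ℕ → K) where
  toFun := fun p i => ((i : K) + 1) * p (i + 1)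
  map_add' := fun p q => by ext i; simp only [Pi.add_apply]; ring
  map_smul' := fun c p => by ext i; simp only [Pi.smul_apply, smul_eq_mul, RingHom.id_apply]; ring

def dop : (ℕ → K) →ₗ[K] (ℕ → K) where
  toFun := fun p i => p i / ((i : K) + 1)
  map_add' := fun p q => by ext i; simp only [Pi.add_apply]; ring
  map_smul' := fun c p => by ext i; simp only [Pi.smul_apply, smul_eq_mul, RingHom.id_apply]; ring

@[simp] theorem hop_apply (a : K) (p : ℕ → K) (i : ℕ) : hop a p i = (2 * (i : K) - a) * p i := rfl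
@[simp] theorem ush_zero (p : ℕ → K) : ush p 0 = 0 := rfl
@[simp] theorem ush_succ (p : ℕ → K) (i : ℕ) : ush p (i + 1) = p i := rfl
@[simp] theorem wop_apply (a : K) (p : ℕ → K) (i : ℕ) : wop a p i = (a - (i : K)) * p i := rfl
@[simp] theorem fop_apply (p : ℕ → K) (i : ℕ) : fop p i = ((i : K) + 1) * p (i + 1) := rfl
@[simp] theorem dop_apply (p : ℕ → K) (i : ℕ) : dop p i = p i / ((i : K) + 1) := rfl

variable (K) in
def WW (n : ℕ) : Submodule K (ℕ → K) where
  carrier := {p | ∀ i, n ≤ i → p i = 0}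
  add_mem' := fun ha hb i hi => by simp [ha i hi, hb i hi]
  zero_mem' := fun _ _ => rfl
  smul_mem' := fun c v hv i hi => by simp [hv i hi]

theorem WW_fin (n : ℕ) : FiniteDimensional K (WW K n) := by
  let e : WW K n →ₗ[K] (Fin n → K) :=
    { toFun := fun p a => p.1 a
      map_add' := fun _ _ => rfl
      map_smul' := fun _ _ => rfl }
  refine FiniteDimensional.of_injective e ?_
  rw [injective_iff_map_eq_zero]
  intro p h0
  ext a
  by_cases ha : a < n
  · exact congrFun h0 ⟨a, ha⟩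
  · exact p.2 a (by omega)

theorem WW_ne_bot (n : ℕ) : WW K (n + 1) ≠ ⊥ := by
  intro h
  have h1 : (Pi.single 0 1 : ℕ → K) ∈ WW K (n + 1) := fun i hi => Pi.single_eq_of_ne (by omega) _
  rw [h, Submodule.mem_bot] at h1
  simpa using congrFun h1 0

variable (K) in
def lop (n : ℕ) (i : ℕ) : (ℕ → K) →ₗ[K] (ℕ → K) :=
  if i = 0 then hop ((n : K) - 1) else if i = 1 then ush ∘ₗ wop ((n : K) - 1)
  else if i = 2 then fop else (n : K) • LinearMap.id

theorem lop0 (n : ℕ) : lop K n 0 = hop ((n : K) - 1) := rfl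
theorem lop1 (n : ℕ) : lop K n 1 = ush ∘ₗ wop ((n : K) - 1) := rfl
theorem lop2 (n : ℕ) : lop K n 2 = fop := rfl
theorem lop3 (n : ℕ) : lop K n 3 = (n : K) • LinearMap.id := rfl

theorem lop_mem (n i : ℕ) (hi : i < 4) {p : ℕ → K} (hp : p ∈ WW K n) : lop K n i p ∈ WW K n := by
  intro k hk
  interval_cases i
  · simp [lop0, hp k hk]
  · rcases k with _ | k
    · simp [lop1]
    · by_cases h : n ≤ k
      · simp [lop1, hp k h]
      · obtain rfl : n = k + 1 := by omega
        simp [lop1]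
  · simp [lop2, hp (k + 1) (by omega)]
  · simp [lop3, hp k hk]

variable (K) in
@[reducible] def LL (n : ℕ) : LObj K 4 where
  X := ℕ → K
  op := lop K n
  F := stepF (WW K n) 0
  mono := stepF_mono _ _
  comp := fun i hi k p hp => by
    refine stepF_mono _ _ _ ?_
    by_cases h : ((0 : ℕ) : ℤ) ≤ k
    · rw [stepF_ge _ h] at hp ⊢
      exact lop_mem n i hi hp
    · rw [stepF_lt _ (by omega), Submodule.mem_bot] at hp ⊢
      rw [hp, map_zero]
  rel := fun i l hil hl p => by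
    interval_cases l <;> interval_cases i <;>
    · ext (_ | k) <;>
      · simp [lop0, lop1, lop2, lop3, cc, dd]
        try ring

def iota : (ℕ → K) →ₗ[K] (ℕ → K) × (ℕ → K) := LinearMap.prod LinearMap.id (-ush)

theorem iota_apply (p : ℕ → K) : iota p = (p, -ush p) := rfl

def kappa (n : ℕ) : (ℕ → K) × (ℕ → K) →ₗ[K] (ℕ → K) :=
  wop (n : K) ∘ₗ LinearMap.fst K _ _ - fop ∘ₗ LinearMap.snd K _ _

theorem kappa_apply (n : ℕ) (y : (ℕ → K) × (ℕ → K)) :
    kappa n y = wop (n : K) y.1 - fop y.2 := rfl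

def sigma : (ℕ → K) →ₗ[K] (ℕ → K) × (ℕ → K) := LinearMap.prod 0 (-ush ∘ₗ dop)

theorem sigma_apply (p : ℕ → K) : sigma p = (0, -ush (dop p)) := rfl

theorem TT_iota (n : ℕ) (p : ℕ → K) : TT (LL K (n + 1)) (iota p) = 0 := by
  rw [TT_apply, iota_apply]
  refine Prod.ext ?_ ?_ <;>
  · ext (_ | k) <;>
    · simp [lop0, lop1, lop2, lop3]
      try ring

theorem rho_iota (n i : ℕ) (hi : i < 4) (p : ℕ → K) :
    rho (LL K (n + 1)) i (iota p) = iota (lop K n i p) := by
  rw [rho_apply, iota_apply, iota_apply]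
  interval_cases i <;>
  · refine Prod.ext ?_ ?_ <;>
    · ext (_ | _ | k) <;>
      · simp [lop0, lop1, lop2, lop3, va, vb, vc, vd, -mul_eq_mul_right_iff]
        try ring

theorem kappa_TT (n : ℕ) (y : (ℕ → K) × (ℕ → K)) : kappa n (TT (LL K (n + 1)) y) = 0 := by
  rw [TT_apply, kappa_apply]
  ext k
  simp [lop0, lop1, lop2, lop3]
  ring

theorem kappa_rho (n i : ℕ) (hi : i < 4) (y : (ℕ → K) × (ℕ → K)) :
    kappa n (rho (LL K (n + 1)) i y) = lop K n i (kappa n y) := by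
  rw [rho_apply, kappa_apply, kappa_apply]
  interval_cases i <;>
  · ext (_ | k) <;>
    · simp [lop0, lop1, lop2, lop3, va, vb, vc, vd]
      try ring

theorem TT_of_kappa (n : ℕ) (y : (ℕ → K) × (ℕ → K)) (h : kappa n y = 0) :
    TT (LL K (n + 1)) y = (2 * ((n : K) + 1)) • y := by
  have h' : ∀ k : ℕ, ((n : K) - k) * y.1 k - ((k : K) + 1) * y.2 (k + 1) = 0 := fun k =>
    congrFun h k
  rw [TT_apply]
  refine Prod.ext ?_ ?_
  · ext k
    simp [lop0, lop2, lop3]
    linear_combination (-2) * h' k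
  · ext (_ | k)
    · simp [lop0, lop1, lop3]
      ring
    · simp [lop0, lop1, lop3]
      linear_combination 2 * h' k

theorem iota_mem {n : ℕ} {p : ℕ → K} (hp : p ∈ WW K n) :
    iota p ∈ (WW K (n + 1)).prod (WW K (n + 1)) := by
  refine ⟨fun i hi => hp i (by omega), ?_⟩
  rintro (_ | i) hi
  · omega
  · simp [iota_apply, hp i (by omega)]

theorem sigma_mem {n : ℕ} {p : ℕ → K} (hp : p ∈ WW K n) :
    sigma p ∈ (WW K (n + 1)).prod (WW K (n + 1)) := by
  refine ⟨Submodule.zero_mem _, ?_⟩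
  rintro (_ | i) hi
  · omega
  · simp [sigma_apply, hp i (by omega)]

theorem kappa_mem {n : ℕ} {y : (ℕ → K) × (ℕ → K)} (hy : y ∈ (WW K (n + 1)).prod (WW K (n + 1))) :
    kappa n y ∈ WW K n := by
  intro i hi
  have h2 : y.2 (i + 1) = 0 := hy.2 (i + 1) (by omega)
  by_cases h : i = n
  · subst h
    simp [kappa_apply, h2]
  · have h1 : y.1 i = 0 := hy.1 i (by omega)
    simp [kappa_apply, h1, h2]

theorem F2_LL (n : ℕ) {k : ℤ} (hk : 0 ≤ k) : F2 (LL K n) k = (WW K n).prod (WW K n) := by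
  unfold F2
  change (stepF _ _ _).prod (stepF _ _ _) = _
  rw [stepF_ge _ (by simpa using hk)]

theorem F_LL (n : ℕ) {k : ℤ} (hk : 0 ≤ k) : (LL K n).F k = WW K n :=
  stepF_ge _ (by simpa using hk)

theorem F_LL_neg (n : ℕ) {k : ℤ} (hk : k < 0) : (LL K n).F k = ⊥ :=
  stepF_lt _ (by simpa using hk)

variable [CharZero K]

theorem kappa_sigma (n : ℕ) (p : ℕ → K) : kappa n (sigma p) = p := by
  ext k
  have : (k : K) + 1 ≠ 0 := Nat.cast_add_one_ne_zero k
  simp [kappa_apply, sigma_apply]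
  field_simp

theorem two_ne (n : ℕ) : (2 * ((n : K) + 1)) ≠ 0 :=
  mul_ne_zero two_ne_zero (Nat.cast_add_one_ne_zero n)

theorem ck_of_kappa (n : ℕ) {y : (ℕ → K) × (ℕ → K)} (h : kappa n y = 0) :
    TT (LL K (n + 1)) ((2 * ((n : K) + 1))⁻¹ • y) = y := by
  rw [map_smul, TT_of_kappa n y h, smul_smul, inv_mul_cancel₀ (two_ne n), one_smul]

theorem ck_eq_of_kappa (n : ℕ) {y y' : (ℕ → K) × (ℕ → K)} (h : kappa n y = kappa n y') :
    ck (LL K (n + 1)) y = ck (LL K (n + 1)) y' := by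
  rw [← sub_eq_zero, ← map_sub, ck_eq_zero]
  exact ⟨_, ck_of_kappa n (by rw [map_sub, h, sub_self])⟩

theorem ker_TT (n : ℕ) {y : (ℕ → K) × (ℕ → K)} (hy : y ∈ (WW K (n + 1)).prod (WW K (n + 1)))
    (h : TT (LL K (n + 1)) y = 0) : ∃ p ∈ WW K n, iota p = y := by
  rw [TT_apply] at h
  have h1 : ∀ k : ℕ, y.2 (k + 1) = - y.1 k := by
    intro k
    have := congrFun (congrArg Prod.fst h) k
    simp [lop0, lop2, lop3] at this
    have h2 : (2 * ((k : K) + 1)) * (y.2 (k + 1) + y.1 k) = 0 := by linear_combination this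
    rcases mul_eq_zero.1 h2 with h3 | h3
    · exact absurd h3 (two_ne k)
    · linear_combination h3
  have h2 : y.2 0 = 0 := by
    have := congrFun (congrArg Prod.snd h) 0
    simp [lop0, lop1, lop3] at this
    have h2 : (2 * ((n : K) + 1)) * y.2 0 = 0 := by linear_combination this
    rcases mul_eq_zero.1 h2 with h3 | h3
    · exact absurd h3 (two_ne n)
    · exact h3
  refine ⟨y.1, fun i hi => ?_, Prod.ext rfl ?_⟩
  · have := hy.2 (i + 1) (by omega)
    rw [h1] at this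
    exact neg_eq_zero.1 this
  · ext (_ | k)
    · simp [iota_apply, h2]
    · simp [iota_apply, h1]

noncomputable def gam (n : ℕ) : (ℕ → K) →ₗ[K] CK (LL K (n + 1)) × (ℕ → K) :=
  LinearMap.inl K _ _ ∘ₗ ck (LL K (n + 1)) ∘ₗ sigma

omit [CharZero K] in
theorem gam_apply (n : ℕ) (p : ℕ → K) : gam n p = (ck (LL K (n + 1)) (sigma p), 0) := rfl

theorem gam_hom (n : ℕ) : GHom (infl (LL K n)) (hat (LL K (n + 1))) (gam n) where
  l :=
    { comm := fun i hi p => by
        change gam n (lop K n i p) = (rhoQ (LL K (n + 1)) i).prodMap (lop K (n + 1) i) (gam n p)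
        rw [gam_apply, gam_apply, LinearMap.prodMap_apply, rhoQ_ck _ hi, map_zero]
        refine Prod.ext (ck_eq_of_kappa n ?_) rfl
        rw [kappa_rho n i hi, kappa_sigma, kappa_sigma]
      filt := fun k p hp => by
        by_cases hk : 0 ≤ k
        · rw [F_LL n hk] at hp
          refine ⟨⟨sigma p, ?_, rfl⟩, Submodule.zero_mem _⟩
          rw [F2_LL _ (by omega)]
          exact sigma_mem hp
        · rw [F_LL_neg n (by omega), Submodule.mem_bot] at hp
          rw [hp, map_zero]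
          exact Submodule.zero_mem _ }
  nu := fun y => by
    change gam n 0 = (ck (LL K (n + 1)) (0, 0), 0)
    rw [map_zero, Prod.mk_zero_zero, map_zero, Prod.mk_zero_zero]

theorem se_gamma (n : ℕ) :
    SE (WinM (infl (LL K n))) (WinM (hat (LL K (n + 1)))) (WinM (infl (LL K (n + 1)))) := by
  refine win_se (gam_hom n) (snd_hom _) fun k hk => ⟨fun p _ h0 => ?_, fun p _ => rfl, ?_, ?_⟩
  · obtain ⟨w, hw⟩ := (ck_eq_zero _).1 (congrArg Prod.fst h0)
    rw [← kappa_sigma n p, ← hw, kappa_TT]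
  · rintro ⟨c, x⟩ ⟨⟨y, hy, h1⟩, -⟩ h0
    dsimp only at h1
    subst h1
    change x = 0 at h0
    subst h0
    rw [F2_LL _ (by omega)] at hy
    refine ⟨kappa n y, ?_, ?_⟩
    · rw [F_LL n hk]
      exact kappa_mem hy
    · rw [gam_apply, ck_eq_of_kappa n (kappa_sigma n _)]
  · exact fun x hx => ⟨(0, x), ⟨Submodule.zero_mem _, hx⟩, rfl⟩

section Img

omit [CharZero K]

/-- The image of a morphism, as a filtration on the target. -/
@[reducible] def img {Y Z : GObj K} {f : Y.L.X →ₗ[K] Z.L.X} (h : GHom Y Z f) : GObj K where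
  L :=
    { X := Z.L.X
      op := Z.L.op
      F := fun n => (Y.L.F n).map f
      mono := fun n => Submodule.map_mono (Y.L.mono n)
      comp := by
        rintro i hi n _ ⟨y, hy, rfl⟩
        exact ⟨_, Y.L.comp i hi n y hy, h.l.comm i hi y⟩
      rel := Z.L.rel }
  nu := Z.nu
  low := by
    rintro n ⟨_, _⟩ ⟨⟨a, ha, rfl⟩, ⟨b, hb, rfl⟩⟩
    exact ⟨Y.nu (a, b), Y.low n _ ⟨ha, hb⟩, h.nu _⟩
  nu_rho := Z.nu_rho
  nu_TT := Z.nu_TT
  nu_nu := Z.nu_nu

theorem img_hom1 {Y Z : GObj K} {f : Y.L.X →ₗ[K] Z.L.X} (h : GHom Y Z f) : GHom Y (img h) f :=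
  ⟨⟨h.l.comm, fun _ x hx => ⟨x, hx, rfl⟩⟩, h.nu⟩

theorem img_hom2 {Y Z : GObj K} {f : Y.L.X →ₗ[K] Z.L.X} (h : GHom Y Z f) :
    GHom (img h) Z LinearMap.id :=
  ⟨⟨fun _ _ _ => rfl, by
    rintro n _ ⟨y, hy, rfl⟩
    exact h.l.filt n y hy⟩, fun _ => rfl⟩

end Img

theorem se_beta (n : ℕ) :
    SE (WinM (img (hmap_hom (fund (LL K (n + 1))).hf))) (WinM (hat (Ind (res (LL K (n + 1))))))
      (WinM (hat (LL K (n + 1)))) := by
  refine win_se (img_hom2 _) (hmap_hom (fund (LL K (n + 1))).hg) fun k hk =>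
    ⟨fun p _ h0 => h0, ?_, fun z hz h0 => ?_, (fund (LL K (n + 1))).hat_surj k⟩
  · rintro _ ⟨z, hz, rfl⟩
    exact (fund (LL K (n + 1))).hat_zero k z hz
  · obtain ⟨w, hw, rfl⟩ := (fund (LL K (n + 1))).hat_mid k (fun w hw => by
      rw [F2_LL _ (by omega)] at hw
      rw [F2_LL _ hk]
      exact ⟨_, Submodule.smul_mem _ _ hw, ck_of_kappa n (kappa_TT n w)⟩) z hz h0
    exact ⟨_, ⟨w, hw, rfl⟩, rfl⟩

section Alpha

omit [CharZero K]

noncomputable def s0 (Y : LObj K 3) : Y.X × Y.X →ₗ[K] (ℕ →₀ Y.X) × (ℕ →₀ Y.X) :=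
  (Finsupp.lsingle 0).prodMap (Finsupp.lsingle 0)

theorem s0_apply (Y : LObj K 3) (v : Y.X × Y.X) :
    s0 Y v = (Finsupp.single 0 v.1, Finsupp.single 0 v.2) := rfl

theorem TT_s0 (Y : LObj K 3) (v : Y.X × Y.X) :
    TT (Ind Y) (s0 Y v) = (sh Y).prodMap (sh Y) (s0 Y v) + s0 Y (T0 Y v) := by
  rw [TT_apply, T0_apply, Ind_op_top, Ind_op_lt Y (show 0 < 3 by omega),
    Ind_op_lt Y (show 1 < 3 by omega), Ind_op_lt Y (show 2 < 3 by omega)]
  simp only [s0_apply, iop_single_zero, LinearMap.prodMap_apply, Prod.mk_add_mk,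
    Finsupp.single_add, Finsupp.single_sub, Finsupp.smul_single, Prod.mk.injEq]
  constructor <;> abel

theorem T0_res (X : LObj K 4) (v : X.X × X.X) :
    T0 (res X) v = TT X v - (X.op 3).prodMap (X.op 3) v := by
  rw [T0_apply, TT_apply]
  simp only [LinearMap.prodMap_apply, Prod.mk_sub_mk, Prod.mk.injEq]
  constructor <;> abel

theorem T0_tw (X : LObj K 4) (v : X.X × X.X) :
    T0 (tw X) v = TT X v - (X.op 3).prodMap (X.op 3) v := by
  rw [← T0_res, T0_apply, T0_apply]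
  simp [cc_of_three]

theorem rho_s0 (X : LObj K 4) (i : ℕ) (hi : i < 4) (v : X.X × X.X) (hv : TT X v = 0) :
    ck (Ind (tw X)) (rho (Ind (tw X)) i (s0 (tw X) v)) =
      ck (Ind (tw X)) (s0 (tw X) (rho X i v)) := by
  by_cases h3 : i = 3
  · subst h3
    rw [← sub_eq_zero, ← map_sub, ck_eq_zero]
    refine ⟨s0 (tw X) v, ?_⟩
    rw [TT_s0, T0_tw, hv, rho_apply, rho_apply, Ind_op_top]
    simp only [s0_apply, LinearMap.prodMap_apply, Prod.mk_add_mk, Prod.mk_sub_mk, zero_sub,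
      Prod.neg_mk, Finsupp.single_add, Finsupp.single_neg, Finsupp.smul_single, Prod.mk.injEq]
    constructor <;> abel
  · congr 1
    rw [rho_apply, rho_apply, Ind_op_lt _ (show i < 3 by omega)]
    simp [s0_apply, cc_of_three]

theorem TT_s0_res (X : LObj K 4) (v : X.X × X.X) (hv : TT X v = 0) :
    TT (Ind (res X)) (s0 (res X) v) = (ff X).prodMap (ff X) (s0 (tw X) v) := by
  rw [TT_s0, T0_res, hv]
  simp only [s0_apply, LinearMap.prodMap_apply, Prod.mk_add_mk, Prod.neg_mk,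
    Finsupp.single_neg, ff_single, sh_single, sub_eq_add_neg, zero_add]

noncomputable def alp (n : ℕ) :
    (ℕ → K) →ₗ[K] CK (Ind (tw (LL K (n + 1)))) × (ℕ →₀ (ℕ → K)) :=
  LinearMap.inl K _ _ ∘ₗ ck (Ind (tw (LL K (n + 1)))) ∘ₗ s0 (tw (LL K (n + 1))) ∘ₗ iota

theorem alp_apply (n : ℕ) (p : ℕ → K) :
    alp n p = (ck (Ind (tw (LL K (n + 1)))) (s0 (tw (LL K (n + 1))) (iota p)), 0) := rfl

theorem s0_iota_mem (n : ℕ) {k : ℤ} (hk : 0 ≤ k) {p : ℕ → K} (hp : p ∈ WW K n) :
    s0 (tw (LL K (n + 1))) (iota p) ∈ F2 (Ind (tw (LL K (n + 1)))) (k + 1) := by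
  have h := iota_mem hp
  constructor
  · refine single_mem (tw (LL K (n + 1))) (a := 0) ?_
    change _ ∈ (LL K (n + 1)).F _
    rw [F_LL _ (by omega)]
    exact h.1
  · refine single_mem (tw (LL K (n + 1))) (a := 0) ?_
    change _ ∈ (LL K (n + 1)).F _
    rw [F_LL _ (by omega)]
    exact h.2

theorem alp_hom (n : ℕ) : GHom (infl (LL K n)) (hat (Ind (tw (LL K (n + 1))))) (alp n) where
  l :=
    { comm := fun i hi p => by
        change alp n (lop K n i p) = (rhoQ (Ind (tw (LL K (n + 1)))) i).prodMap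
          ((Ind (tw (LL K (n + 1)))).op i) (alp n p)
        rw [alp_apply, alp_apply, LinearMap.prodMap_apply, rhoQ_ck _ hi, map_zero,
          rho_s0 _ i hi _ (TT_iota n p), rho_iota n i hi]
      filt := fun k p hp => by
        by_cases hk : 0 ≤ k
        · rw [F_LL n hk] at hp
          exact ⟨⟨_, s0_iota_mem n hk hp, rfl⟩, Submodule.zero_mem _⟩
        · rw [F_LL_neg n (by omega), Submodule.mem_bot] at hp
          rw [hp, map_zero]
          exact Submodule.zero_mem _ }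
  nu := fun y => by
    change alp n 0 = (ck (Ind (tw (LL K (n + 1)))) (0, 0), 0)
    rw [map_zero, Prod.mk_zero_zero, map_zero, Prod.mk_zero_zero]

end Alpha

theorem se_alpha (n : ℕ) :
    SE (WinM (infl (LL K n))) (WinM (hat (Ind (tw (LL K (n + 1))))))
      (WinM (img (hmap_hom (fund (LL K (n + 1))).hf))) := by
  have hs := fund (LL K (n + 1))
  refine win_se (alp_hom n) (img_hom1 _) fun k hk => ⟨fun p hp h0 => ?_, fun p _ => ?_, ?_, ?_⟩
  · rw [F_LL n hk] at hp
    obtain ⟨w, hw⟩ := (ck_eq_zero _).1 (congrArg Prod.fst h0)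
    have h1 := (tgood_ind _).strict 0 w (hw ▸ s0_iota_mem n le_rfl hp)
    have h2 : ∀ q ∈ (Ind (tw (LL K (n + 1)))).F 0, q = 0 := by
      intro q hq
      ext1 a
      have := hq a
      change _ ∈ (LL K (n + 1)).F _ at this
      rwa [F_LL_neg _ (by omega), Submodule.mem_bot] at this
    have h3 : w = 0 := Prod.ext (h2 _ h1.1) (h2 _ h1.2)
    rw [h3, map_zero] at hw
    have h4 := congrArg Prod.fst hw
    exact Finsupp.single_eq_zero.1 h4.symm
  · rw [alp_apply, hmap_apply, map_zero, ← TT_s0_res _ _ (TT_iota n p), ck_TT, Prod.mk_zero_zero]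
  · rintro ⟨c, x⟩ ⟨⟨y, hy, h1⟩, hx⟩ h0
    dsimp only at h1 hx
    subst h1
    rw [hmap_apply] at h0
    have hx0 : x = 0 := ff_inj (LL K (n + 1)) _ (congrArg Prod.snd h0)
    subst hx0
    obtain ⟨w, hw⟩ := (ck_eq_zero _).1 (congrArg Prod.fst h0)
    have hwF := (tgood_ind _).strict k w (hw ▸ hs.hf.F2 hy)
    have hg := hs.hg.F2 hwF
    rw [F2_LL _ hk] at hg
    obtain ⟨p, hp, hp'⟩ := ker_TT n hg (by rw [← hs.hg.TT, hw, hs.zero2 hy])
    obtain ⟨a, ha⟩ := ff_range (LL K (n + 1)) w.1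
    obtain ⟨b, hb⟩ := ff_range (LL K (n + 1)) w.2
    have hw' : w = (ff (LL K (n + 1))).prodMap (ff (LL K (n + 1))) (a, b) +
        s0 (res (LL K (n + 1))) (iota p) := by
      rw [hp', LinearMap.prodMap_apply, ha, hb, s0_apply]
      simp
    refine ⟨p, by rw [F_LL n hk]; exact hp, ?_⟩
    rw [alp_apply]
    refine Prod.ext ?_ rfl
    dsimp only
    rw [eq_comm, ← sub_eq_zero, ← map_sub, ck_eq_zero]
    refine ⟨(a, b), ?_⟩
    rw [← sub_eq_zero]
    have key : (ff (LL K (n + 1))).prodMap (ff (LL K (n + 1)))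
        (TT (Ind (tw (LL K (n + 1)))) (a, b) - (y - s0 (tw (LL K (n + 1))) (iota p))) = 0 := by
      rw [map_sub, map_sub, hs.hf.TT, ← hw, ← TT_s0_res _ _ (TT_iota n p), hw', map_add]
      abel
    exact Prod.ext (ff_inj (LL K (n + 1)) _ (congrArg Prod.fst key))
      (ff_inj (LL K (n + 1)) _ (congrArg Prod.snd key))
  · rintro _ ⟨z, hz, rfl⟩
    exact ⟨z, hz, rfl⟩

theorem main (n : ℕ) :
    (∃ q, PD (WinM (infl (LL K (n + 1)))) q) ∧ ¬ PD (WinM (infl (LL K (n + 1)))) (n + 4) := by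
  refine growth (fun n => WinM (infl (LL K n))) (SS K) ?_ (fun n => ?_) n
  · refine win_subsingleton fun k x hx => ?_
    by_cases hk : 0 ≤ k
    · rw [F_LL 0 hk] at hx
      exact funext fun i => hx i (Nat.zero_le _)
    · rwa [F_LL_neg 0 (by omega), Submodule.mem_bot] at hx
  · obtain ⟨a1, -, a3⟩ := good3 (tw (LL K (n + 1))) (WW K (n + 1)) 1 (WW_fin _)
      (tw_F (Y := LL K (n + 1)) rfl) (by omega)
    obtain ⟨b1, b2, -⟩ := good3 (res (LL K (n + 1))) (WW K (n + 1)) 0 (WW_fin _) rfl (by omega)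
    exact ⟨_, _, _, _, se_alpha n, se_beta n, se_gamma n, a1, b1, a3 rfl (WW_ne_bot n),
      b2 (by omega)⟩

omit [CharZero K] in
theorem main_finite (n : ℕ) : Module.Finite (AA K) (WinM (infl (LL K n))) := by
  have : FiniteDimensional K (Win (infl (LL K n))) := win_finite fun k => by
    by_cases hk : 0 ≤ k
    · rw [F_LL n hk]
      exact WW_fin n
    · rw [F_LL_neg n (by omega)]
      infer_instance
  exact Module.Finite.of_restrictScalars_finite K (AA K) (Win (infl (LL K n)))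

end Vale.Agent.P176
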