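import Vale.Agent.P176.Level

/- The square-zero extension: objects with the extra degree -1 operator, and the free such object. -/

namespace Vale.Agent.P176

universe u

variable {K : Type u} [Field K]

def va (K : Type u) [Field K] (i : ℕ) : K := if i = 0 then 1 else if i = 3 then -1 else 0
def vb (K : Type u) [Field K] (i : ℕ) : K := if i = 1 then 1 else 0
def vc (K : Type u) [Field K] (i : ℕ) : K := if i = 2 then 1 else 0
def vd (K : Type u) [Field K] (i : ℕ) : K := if i = 0 then -1 else if i = 3 then -1 else 0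

section

variable (X : LObj K 4)

def rho (i : ℕ) : X.X × X.X →ₗ[K] X.X × X.X :=
  LinearMap.prod
    (X.op i ∘ₗ LinearMap.fst K _ _ + va K i • LinearMap.fst K _ _ + vb K i • LinearMap.snd K _ _)
    (X.op i ∘ₗ LinearMap.snd K _ _ + vc K i • LinearMap.fst K _ _ + vd K i • LinearMap.snd K _ _)

theorem rho_apply (i : ℕ) (y : X.X × X.X) :
    rho X i y = (X.op i y.1 + va K i • y.1 + vb K i • y.2,
      X.op i y.2 + vc K i • y.1 + vd K i • y.2) := rfl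

def TT : X.X × X.X →ₗ[K] X.X × X.X :=
  LinearMap.prod
    ((X.op 0 + X.op 3 + LinearMap.id) ∘ₗ LinearMap.fst K _ _ +
      (2 : K) • X.op 2 ∘ₗ LinearMap.snd K _ _)
    ((2 : K) • X.op 1 ∘ₗ LinearMap.fst K _ _ +
      (X.op 3 - X.op 0 + LinearMap.id) ∘ₗ LinearMap.snd K _ _)

theorem TT_apply (y : X.X × X.X) :
    TT X y = (X.op 0 y.1 + X.op 3 y.1 + y.1 + (2 : K) • X.op 2 y.2,
      (2 : K) • X.op 1 y.1 + (X.op 3 y.2 - X.op 0 y.2 + y.2)) := rfl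

theorem r01 (x : X.X) : X.op 0 (X.op 1 x) = X.op 1 (X.op 0 x) + (2 : K) • X.op 1 x := by
  simpa [cc, dd] using X.rel 0 1 (by omega) (by omega) x

theorem r02 (x : X.X) : X.op 0 (X.op 2 x) = X.op 2 (X.op 0 x) - (2 : K) • X.op 2 x := by
  simpa [cc, dd, sub_eq_add_neg] using X.rel 0 2 (by omega) (by omega) x

theorem r12 (x : X.X) : X.op 1 (X.op 2 x) = X.op 2 (X.op 1 x) + X.op 0 x := by
  simpa [cc, dd] using X.rel 1 2 (by omega) (by omega) x

theorem r03 (x : X.X) : X.op 0 (X.op 3 x) = X.op 3 (X.op 0 x) := by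
  simpa [cc, dd] using X.rel 0 3 (by omega) (by omega) x

theorem r13 (x : X.X) : X.op 1 (X.op 3 x) = X.op 3 (X.op 1 x) := by
  simpa [cc, dd] using X.rel 1 3 (by omega) (by omega) x

theorem r23 (x : X.X) : X.op 2 (X.op 3 x) = X.op 3 (X.op 2 x) := by
  simpa [cc, dd] using X.rel 2 3 (by omega) (by omega) x

theorem rho_TT (i : ℕ) (hi : i < 4) (y : X.X × X.X) : rho X i (TT X y) = TT X (rho X i y) := by
  interval_cases i <;>
  · simp only [rho_apply, TT_apply, va, vb, vc, vd]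
    norm_num
    constructor <;>
    · simp only [r01, r02, r12, r03, r13, r23]
      module

theorem rho_rel (i l : ℕ) (hil : i < l) (hl : l < 4) (y : X.X × X.X) :
    rho X i (rho X l y) = rho X l (rho X i y) + cc K l i • rho X l y + dd K l i • rho X 0 y := by
  interval_cases l <;> interval_cases i <;>
  · simp only [rho_apply, va, vb, vc, vd, cc, dd]
    norm_num
    constructor <;>
    · simp only [r01, r02, r12, r03, r13, r23]
      try module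

def F2 (n : ℤ) : Submodule K (X.X × X.X) := (X.F n).prod (X.F n)

theorem rho_mem (i : ℕ) (hi : i < 4) {n : ℤ} {y : X.X × X.X} (hy : y ∈ F2 X n) :
    rho X i y ∈ F2 X (n + 1) := by
  have h1 := X.mono n hy.1
  have h2 := X.mono n hy.2
  exact ⟨Submodule.add_mem _ (Submodule.add_mem _ (X.comp i hi _ _ hy.1)
    (Submodule.smul_mem _ _ h1)) (Submodule.smul_mem _ _ h2),
    Submodule.add_mem _ (Submodule.add_mem _ (X.comp i hi _ _ hy.2)
    (Submodule.smul_mem _ _ h1)) (Submodule.smul_mem _ _ h2)⟩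

theorem TT_mem {n : ℤ} {y : X.X × X.X} (hy : y ∈ F2 X n) : TT X y ∈ F2 X (n + 1) := by
  have h1 := X.mono n hy.1
  have h2 := X.mono n hy.2
  exact ⟨Submodule.add_mem _ (Submodule.add_mem _ (Submodule.add_mem _
    (X.comp 0 (by omega) _ _ hy.1) (X.comp 3 (by omega) _ _ hy.1)) h1)
    (Submodule.smul_mem _ _ (X.comp 2 (by omega) _ _ hy.2)),
    Submodule.add_mem _ (Submodule.smul_mem _ _ (X.comp 1 (by omega) _ _ hy.1))
    (Submodule.add_mem _ (Submodule.sub_mem _ (X.comp 3 (by omega) _ _ hy.2)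
    (X.comp 0 (by omega) _ _ hy.2)) h2)⟩

end

section

variable {X Z : LObj K 4} {f : X.X →ₗ[K] Z.X}

theorem LHom.rho (h : LHom X Z f) (i : ℕ) (hi : i < 4) (y : X.X × X.X) :
    f.prodMap f (rho X i y) = rho Z i (f.prodMap f y) := by
  simp [rho_apply, h.comm i hi]

theorem LHom.TT (h : LHom X Z f) (y : X.X × X.X) :
    f.prodMap f (TT X y) = TT Z (f.prodMap f y) := by
  simp [TT_apply, h.comm 0, h.comm 1, h.comm 2, h.comm 3]

theorem LHom.F2 (h : LHom X Z f) {n : ℤ} {y : X.X × X.X} (hy : y ∈ F2 X n) :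
    f.prodMap f y ∈ F2 Z n := ⟨h.filt _ _ hy.1, h.filt _ _ hy.2⟩

end

structure GObj (K : Type u) [Field K] where
  L : LObj K 4
  nu : L.X × L.X →ₗ[K] L.X
  low : ∀ n, ∀ y ∈ F2 L (n + 1), nu y ∈ L.F n
  nu_rho : ∀ i < 4, ∀ y, L.op i (nu y) = nu (rho L i y)
  nu_TT : ∀ y, nu (TT L y) = 0
  nu_nu : ∀ y y', nu (nu y, nu y') = 0

structure GHom (Y Z : GObj K) (f : Y.L.X →ₗ[K] Z.L.X) : Prop where
  l : LHom Y.L Z.L f
  nu : ∀ y, f (Y.nu y) = Z.nu (f.prodMap f y)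

theorem GHom.id (Y : GObj K) : GHom Y Y LinearMap.id := ⟨LHom.id _, fun _ => rfl⟩

theorem GHom.comp {Y Z W : GObj K} {f : Y.L.X →ₗ[K] Z.L.X} {g : Z.L.X →ₗ[K] W.L.X}
    (hg : GHom Z W g) (hf : GHom Y Z f) : GHom Y W (g ∘ₗ f) :=
  ⟨hg.l.comp hf.l, fun y => by
    rw [LinearMap.comp_apply, hf.nu, hg.nu]
    rfl⟩

@[reducible] def infl (X : LObj K 4) : GObj K where
  L := X
  nu := 0
  low := fun _ _ _ => Submodule.zero_mem _
  nu_rho := fun _ _ _ => by simp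
  nu_TT := fun _ => rfl
  nu_nu := fun _ _ => rfl

section Hat

variable (X : LObj K 4)

abbrev CK := (X.X × X.X) ⧸ LinearMap.range (TT X)

def ck : X.X × X.X →ₗ[K] CK X := (LinearMap.range (TT X)).mkQ

theorem ck_surj (c : CK X) : ∃ y, ck X y = c := (LinearMap.range (TT X)).mkQ_surjective c

theorem ck_eq_zero {y : X.X × X.X} : ck X y = 0 ↔ ∃ w, TT X w = y := by
  simp [ck]

theorem ck_TT (y : X.X × X.X) : ck X (TT X y) = 0 := (ck_eq_zero X).2 ⟨y, rfl⟩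

noncomputable def rhoQ (i : ℕ) : CK X →ₗ[K] CK X :=
  if hi : i < 4 then Submodule.mapQ _ _ (rho X i) (by
    rintro _ ⟨w, rfl⟩
    exact ⟨rho X i w, (rho_TT X i hi w).symm⟩) else 0

theorem rhoQ_ck {i : ℕ} (hi : i < 4) (y : X.X × X.X) : rhoQ X i (ck X y) = ck X (rho X i y) := by
  unfold rhoQ
  rw [dif_pos hi]
  rfl

def hatF (n : ℤ) : Submodule K (CK X × X.X) := ((F2 X (n + 1)).map (ck X)).prod (X.F n)

theorem mem_hatF {n : ℤ} {z : CK X × X.X} :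
    z ∈ hatF X n ↔ (∃ y ∈ F2 X (n + 1), ck X y = z.1) ∧ z.2 ∈ X.F n := Iff.rfl

@[reducible] noncomputable def hatL : LObj K 4 where
  X := CK X × X.X
  op := fun i => (rhoQ X i).prodMap (X.op i)
  F := hatF X
  mono := fun n z ⟨⟨y, hy, h1⟩, h2⟩ =>
    ⟨⟨y, ⟨X.mono _ hy.1, X.mono _ hy.2⟩, h1⟩, X.mono _ h2⟩
  comp := fun i hi n z ⟨⟨y, hy, h1⟩, h2⟩ =>
    ⟨⟨rho X i y, rho_mem X i hi hy, by
      rw [← rhoQ_ck X hi, h1]
      rfl⟩, X.comp i hi _ _ h2⟩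
  rel := fun i l hil hl ⟨c, x⟩ => by
    obtain ⟨y, rfl⟩ := ck_surj X c
    have hi : i < 4 := by omega
    simp only [LinearMap.prodMap_apply, rhoQ_ck X hi, rhoQ_ck X hl,
      rhoQ_ck X (show 0 < 4 by omega), rho_rel X i l hil hl, X.rel i l hil hl, map_add, map_smul,
      Prod.smul_mk, Prod.mk_add_mk]

noncomputable def hatNu : (CK X × X.X) × (CK X × X.X) →ₗ[K] CK X × X.X :=
  LinearMap.inl K _ _ ∘ₗ ck X ∘ₗ (LinearMap.snd K _ _).prodMap (LinearMap.snd K _ _)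

theorem hatNu_apply (z : (CK X × X.X) × (CK X × X.X)) :
    hatNu X z = (ck X (z.1.2, z.2.2), 0) := rfl

@[reducible] noncomputable def hat : GObj K where
  L := hatL X
  nu := hatNu X
  low := fun n z hz => ⟨⟨(z.1.2, z.2.2), ⟨hz.1.2, hz.2.2⟩, rfl⟩, Submodule.zero_mem _⟩
  nu_rho := fun i hi z => by
    simp only [hatNu_apply, LinearMap.prodMap_apply, rhoQ_ck X hi, map_zero]
    rfl
  nu_TT := fun z => by
    have := ck_TT X (z.1.2, z.2.2)
    rw [hatNu_apply]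
    exact Prod.ext this rfl
  nu_nu := fun z z' => by
    simp only [hatNu_apply]
    exact Prod.ext (map_zero (ck X)) rfl

variable {X}

theorem inr_hom : LHom X (hatL X) (LinearMap.inr K _ _) where
  comm := fun i hi x => by simp
  filt := fun n x hx => ⟨Submodule.zero_mem _, hx⟩

noncomputable def hlift (Z : GObj K) {ψ : X.X →ₗ[K] Z.L.X} (h : LHom X Z.L ψ) :
    CK X × X.X →ₗ[K] Z.L.X :=
  LinearMap.coprod (Submodule.liftQ _ (Z.nu ∘ₗ ψ.prodMap ψ) (by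
    rintro _ ⟨w, rfl⟩
    rw [LinearMap.mem_ker, LinearMap.comp_apply, h.TT, Z.nu_TT])) ψ

theorem hlift_apply (Z : GObj K) {ψ : X.X →ₗ[K] Z.L.X} (h : LHom X Z.L ψ) (y : X.X × X.X)
    (x : X.X) : hlift Z h (ck X y, x) = Z.nu (ψ.prodMap ψ y) + ψ x := rfl

theorem hlift_hom (Z : GObj K) {ψ : X.X →ₗ[K] Z.L.X} (h : LHom X Z.L ψ) :
    GHom (hat X) Z (hlift Z h) where
  l :=
    { comm := fun i hi ⟨c, x⟩ => by
        obtain ⟨y, rfl⟩ := ck_surj X c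
        simp only [LinearMap.prodMap_apply, rhoQ_ck X hi]
        rw [hlift_apply, hlift_apply, map_add, Z.nu_rho i hi, h.rho i hi, h.comm i hi]
      filt := fun n ⟨c, x⟩ ⟨⟨y, hy, h1⟩, h2⟩ => by
        dsimp only at h1 h2
        subst h1
        rw [hlift_apply]
        exact Submodule.add_mem _ (Z.low _ _ (h.F2 hy)) (h.filt _ _ h2) }
  nu := fun ⟨⟨c, x⟩, ⟨c', x'⟩⟩ => by
    obtain ⟨y, rfl⟩ := ck_surj X c
    obtain ⟨y', rfl⟩ := ck_surj X c'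
    change hlift Z h (ck X (x, x'), 0) = Z.nu (hlift Z h (ck X y, x), hlift Z h (ck X y', x'))
    rw [hlift_apply, hlift_apply, hlift_apply, ← Prod.mk_add_mk, map_add, Z.nu_nu, map_zero]
    simp

theorem hlift_inr (Z : GObj K) {ψ : X.X →ₗ[K] Z.L.X} (h : LHom X Z.L ψ) (x : X.X) :
    hlift Z h (0, x) = ψ x := by
  have := hlift_apply Z h 0 x
  rwa [map_zero, map_zero, map_zero, zero_add] at this

theorem hat_uniq {Z : GObj K} {φ : CK X × X.X →ₗ[K] Z.L.X} (h : GHom (hat X) Z φ)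
    (h0 : ∀ x, φ (0, x) = 0) (z : CK X × X.X) : φ z = 0 := by
  obtain ⟨c, x⟩ := z
  obtain ⟨y, rfl⟩ := ck_surj X c
  have h1 := h.nu ((0, y.1), (0, y.2))
  change φ (ck X y, 0) = Z.nu (φ (0, y.1), φ (0, y.2)) at h1
  rw [h0, h0, Prod.mk_zero_zero, map_zero] at h1
  have : (ck X y, x) = (ck X y, 0) + (0, x) := by simp
  rw [this, map_add, h1, h0, add_zero]

noncomputable def hmap {Z : LObj K 4} {f : X.X →ₗ[K] Z.X} (h : LHom X Z f) :
    CK X × X.X →ₗ[K] CK Z × Z.X :=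
  hlift (hat Z) (inr_hom.comp h)

theorem hmap_hom {Z : LObj K 4} {f : X.X →ₗ[K] Z.X} (h : LHom X Z f) :
    GHom (hat X) (hat Z) (hmap h) := hlift_hom _ _

theorem hmap_apply {Z : LObj K 4} {f : X.X →ₗ[K] Z.X} (h : LHom X Z f) (y : X.X × X.X)
    (x : X.X) : hmap h (ck X y, x) = (ck Z (f.prodMap f y), f x) := by
  unfold hmap
  rw [hlift_apply]
  change (ck Z (f.prodMap f y), (0 : Z.X)) + (0, f x) = _
  simp

theorem snd_hom (X : LObj K 4) : GHom (hat X) (infl X) (LinearMap.snd K _ _) where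
  l := ⟨fun _ _ _ => rfl, fun _ _ hz => hz.2⟩
  nu := fun _ => rfl

end Hat

structure TGood (X : LObj K 4) : Prop where
  inj : ∀ w, TT X w = 0 → w = 0
  strict : ∀ n w, TT X w ∈ F2 X (n + 1) → w ∈ F2 X n

section Exact

variable {X1 X2 X3 : LObj K 4} {f : X1.X →ₗ[K] X2.X} {g : X2.X →ₗ[K] X3.X}

theorem LSES.mid2 (h : LSES X1 X2 X3 f g) {n : ℤ} {y : X2.X × X2.X} (hy : y ∈ F2 X2 n)
    (h0 : g.prodMap g y = 0) : ∃ x ∈ F2 X1 n, f.prodMap f x = y := by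
  obtain ⟨a, ha, ha'⟩ := (h.ex n).mid _ hy.1 (congrArg Prod.fst h0)
  obtain ⟨b, hb, hb'⟩ := (h.ex n).mid _ hy.2 (congrArg Prod.snd h0)
  exact ⟨(a, b), ⟨ha, hb⟩, Prod.ext ha' hb'⟩

theorem LSES.surj2 (h : LSES X1 X2 X3 f g) {n : ℤ} {y : X3.X × X3.X} (hy : y ∈ F2 X3 n) :
    ∃ x ∈ F2 X2 n, g.prodMap g x = y := by
  obtain ⟨a, ha, ha'⟩ := (h.ex n).surj _ hy.1
  obtain ⟨b, hb, hb'⟩ := (h.ex n).surj _ hy.2
  exact ⟨(a, b), ⟨ha, hb⟩, Prod.ext ha' hb'⟩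

theorem LSES.zero2 (h : LSES X1 X2 X3 f g) {n : ℤ} {y : X1.X × X1.X} (hy : y ∈ F2 X1 n) :
    g.prodMap g (f.prodMap f y) = 0 :=
  Prod.ext ((h.ex n).zero _ hy.1) ((h.ex n).zero _ hy.2)

theorem LSES.inj2 (h : LSES X1 X2 X3 f g) {n : ℤ} {y : X1.X × X1.X} (hy : y ∈ F2 X1 n)
    (h0 : f.prodMap f y = 0) : y = 0 :=
  Prod.ext ((h.ex n).inj _ hy.1 (congrArg Prod.fst h0)) ((h.ex n).inj _ hy.2 (congrArg Prod.snd h0))

theorem LSES.hat_zero (h : LSES X1 X2 X3 f g) (n : ℤ) :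
    ∀ z ∈ hatF X1 n, hmap h.hg (hmap h.hf z) = 0 := by
  rintro ⟨c, x⟩ ⟨⟨y, hy, h1⟩, h2⟩
  dsimp only at h1 h2
  subst h1
  rw [hmap_apply, hmap_apply, h.zero2 hy, (h.ex n).zero _ h2, map_zero, Prod.mk_zero_zero]

theorem LSES.hat_surj (h : LSES X1 X2 X3 f g) (n : ℤ) :
    ∀ z ∈ hatF X3 n, ∃ w ∈ hatF X2 n, hmap h.hg w = z := by
  rintro ⟨c, x⟩ ⟨⟨y, hy, h1⟩, h2⟩
  dsimp only at h1 h2
  subst h1
  obtain ⟨y', hy', rfl⟩ := h.surj2 hy
  obtain ⟨x', hx', rfl⟩ := (h.ex n).surj _ h2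
  exact ⟨(ck X2 y', x'), ⟨⟨y', hy', rfl⟩, hx'⟩, hmap_apply _ _ _⟩

theorem LSES.hat_mid (h : LSES X1 X2 X3 f g) (n : ℤ)
    (h3 : ∀ w, TT X3 w ∈ F2 X3 (n + 1) → ∃ v ∈ F2 X3 n, TT X3 v = TT X3 w) :
    ∀ z ∈ hatF X2 n, hmap h.hg z = 0 → ∃ w ∈ hatF X1 n, hmap h.hf w = z := by
  rintro ⟨c, x⟩ ⟨⟨y, hy, h1⟩, h2⟩ h0
  dsimp only at h1 h2
  subst h1
  rw [hmap_apply] at h0
  obtain ⟨x', hx', rfl⟩ := (h.ex n).mid _ h2 (congrArg Prod.snd h0)
  obtain ⟨w, hw⟩ := (ck_eq_zero X3).1 (congrArg Prod.fst h0)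
  obtain ⟨v, hv, hv'⟩ := h3 w (hw ▸ h.hg.F2 hy)
  obtain ⟨v', hv1, rfl⟩ := h.surj2 hv
  obtain ⟨y', hy', hy2⟩ := h.mid2 (Submodule.sub_mem _ hy (TT_mem X2 hv1))
    (by rw [map_sub, h.hg.TT, hv', hw, sub_self])
  refine ⟨(ck X1 y', x'), ⟨⟨y', hy', rfl⟩, hx'⟩, ?_⟩
  rw [hmap_apply, hy2, map_sub, ck_TT, sub_zero]

theorem LSES.hat (h : LSES X1 X2 X3 f g) (h2 : TGood X2) (h3 : TGood X3) (n : ℤ) :
    PieceExact (hatF X1 n) (hatF X2 n) (hatF X3 n) (hmap h.hf) (hmap h.hg) where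
  zero := h.hat_zero n
  surj := h.hat_surj n
  mid := h.hat_mid n fun w hw => ⟨w, h3.strict n w hw, rfl⟩
  inj := by
    rintro ⟨c, x⟩ ⟨⟨y, hy, h1⟩, hx⟩ h0
    dsimp only at h1 hx
    subst h1
    rw [hmap_apply] at h0
    have hx0 : x = 0 := (h.ex n).inj _ hx (congrArg Prod.snd h0)
    obtain ⟨w, hw⟩ := (ck_eq_zero X2).1 (congrArg Prod.fst h0)
    have hwF : w ∈ F2 X2 n := h2.strict n w (hw ▸ h.hf.F2 hy)
    have hgw : g.prodMap g w = 0 := h3.inj _ (by rw [← h.hg.TT, hw, h.zero2 hy])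
    obtain ⟨w', hw', rfl⟩ := h.mid2 hwF hgw
    have : y - TT X1 w' = 0 := h.inj2 (Submodule.sub_mem _ hy (TT_mem X1 hw'))
      (by rw [map_sub, h.hf.TT, hw, sub_self])
    rw [sub_eq_zero] at this
    rw [this, hx0, ck_TT, Prod.mk_zero_zero]

end Exact

section IndT

variable (Y : LObj K 3)

/-- The coefficientwise part of the operator T. -/
def T0 : Y.X × Y.X →ₗ[K] Y.X × Y.X :=
  LinearMap.prod
    ((Y.op 0 + LinearMap.id) ∘ₗ LinearMap.fst K _ _ + (2 : K) • Y.op 2 ∘ₗ LinearMap.snd K _ _)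
    ((2 : K) • Y.op 1 ∘ₗ LinearMap.fst K _ _ + (LinearMap.id - Y.op 0) ∘ₗ LinearMap.snd K _ _)

theorem T0_apply (y : Y.X × Y.X) :
    T0 Y y = (Y.op 0 y.1 + y.1 + (2 : K) • Y.op 2 y.2,
      (2 : K) • Y.op 1 y.1 + (y.2 - Y.op 0 y.2)) := rfl

theorem iop3_apply (i : ℕ) (p : ℕ →₀ Y.X) (b : ℕ) : iop Y i p b = Y.op i (p b) := by
  simp [iop_apply, cc_of_three, dd_of_three]

theorem TT_ind_succ (w : (ℕ →₀ Y.X) × (ℕ →₀ Y.X)) (a : ℕ) :
    ((TT (Ind Y) w).1 (a + 1), (TT (Ind Y) w).2 (a + 1)) =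
      (w.1 a, w.2 a) + T0 Y (w.1 (a + 1), w.2 (a + 1)) := by
  rw [TT_apply, T0_apply, Ind_op_top, Ind_op_lt Y (show 0 < 3 by omega),
    Ind_op_lt Y (show 1 < 3 by omega), Ind_op_lt Y (show 2 < 3 by omega)]
  simp only [Finsupp.add_apply, Finsupp.smul_apply, Finsupp.sub_apply, iop3_apply, sh_apply_succ,
    Prod.mk_add_mk, Prod.mk.injEq]
  constructor <;> abel

theorem tgood_ind : TGood (Ind Y) where
  inj := fun w hw => by
    obtain ⟨B1, hB1⟩ := finsupp_bound w.1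
    obtain ⟨B2, hB2⟩ := finsupp_bound w.2
    have key := recur (K := K) (fun _ => ⊥) (fun _ => -T0 Y) (fun a v hv => by simp_all)
      (fun a => (w.1 a, w.2 a)) (B1 + B2)
      (fun a ha => by rw [hB1 a (by omega), hB2 a (by omega)]; rfl)
      (fun a => by
        rw [LinearMap.neg_apply, sub_neg_eq_add, ← TT_ind_succ, hw]
        rfl)
    ext a
    · exact congrArg Prod.fst ((Submodule.mem_bot K).1 (key a))
    · exact congrArg Prod.snd ((Submodule.mem_bot K).1 (key a))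
  strict := fun n w hw => by
    obtain ⟨B1, hB1⟩ := finsupp_bound w.1
    obtain ⟨B2, hB2⟩ := finsupp_bound w.2
    have key := recur (K := K) (fun a => (Y.F (n - a)).prod (Y.F (n - a))) (fun _ => -T0 Y)
      (fun a v hv => by
        have hc : ∀ i < 3, ∀ x ∈ Y.F (n - (a + 1 : ℕ)), Y.op i x ∈ Y.F (n - a) :=
          fun i hi x hx => Y.mono' (by push_cast; omega) (Y.comp i hi _ _ hx)
        have h1 : v.1 ∈ Y.F (n - a) := Y.mono' (by push_cast; omega) hv.1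
        have h2 : v.2 ∈ Y.F (n - a) := Y.mono' (by push_cast; omega) hv.2
        refine Submodule.neg_mem _ ⟨?_, ?_⟩
        · exact Submodule.add_mem _ (Submodule.add_mem _ (hc 0 (by omega) _ hv.1) h1)
            (Submodule.smul_mem _ _ (hc 2 (by omega) _ hv.2))
        · exact Submodule.add_mem _ (Submodule.smul_mem _ _ (hc 1 (by omega) _ hv.1))
            (Submodule.sub_mem _ h2 (hc 0 (by omega) _ hv.2)))
      (fun a => (w.1 a, w.2 a)) (B1 + B2)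
      (fun a ha => by rw [hB1 a (by omega), hB2 a (by omega)]; rfl)
      (fun a => by
        rw [LinearMap.neg_apply, sub_neg_eq_add, ← TT_ind_succ]
        exact ⟨Y.mono' (by push_cast; omega) (hw.1 (a + 1)),
          Y.mono' (by push_cast; omega) (hw.2 (a + 1))⟩)
    exact ⟨fun a => (key a).1, fun a => (key a).2⟩

end IndT

end Vale.Agent.P176
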