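import Mathlib

/- Filtered modules over the iterated Ore extensions building up the enveloping algebra of gl2. -/

namespace Vale.Agent.P176

universe u

variable (K : Type u) [Field K]

def cc (l i : ℕ) : K := if l = 1 ∧ i = 0 then 2 else if l = 2 ∧ i = 0 then -2 else 0

def dd (l i : ℕ) : K := if l = 2 ∧ i = 1 then 1 else 0

structure LObj (j : ℕ) where
  X : Type u
  [acg : AddCommGroup X]
  [md : Module K X]
  op : ℕ → X →ₗ[K] X
  F : ℤ → Submodule K X
  mono : ∀ n, F n ≤ F (n + 1)
  comp : ∀ i < j, ∀ n, ∀ x ∈ F n, op i x ∈ F (n + 1)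
  rel : ∀ i l, i < l → l < j → ∀ x,
    op i (op l x) = op l (op i x) + cc K l i • op l x + dd K l i • op 0 x

attribute [instance] LObj.acg LObj.md

variable {K}

theorem cc_of_pos (l : ℕ) {i : ℕ} (hi : 0 < i) : cc K l i = 0 := by
  unfold cc
  rw [if_neg (by omega), if_neg (by omega)]

theorem cc_of_three {l : ℕ} (i : ℕ) (hl : 3 ≤ l) : cc K l i = 0 := by
  unfold cc
  rw [if_neg (by omega), if_neg (by omega)]

theorem dd_of_three {l : ℕ} (i : ℕ) (hl : 3 ≤ l) : dd K l i = 0 := by
  unfold dd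
  rw [if_neg (by omega)]

theorem dd_zero (l : ℕ) : dd K l 0 = 0 := by
  unfold dd
  rw [if_neg (by omega)]

theorem LObj.mono' {j : ℕ} (Y : LObj K j) {m n : ℤ} (h : m ≤ n) : Y.F m ≤ Y.F n := by
  obtain ⟨k, rfl⟩ := Int.le.dest h
  induction k with
  | zero => simp
  | succ k ih =>
    refine (ih (by omega)).trans ?_
    have := Y.mono (m + k)
    rwa [show m + k + 1 = m + ((k + 1 : ℕ) : ℤ) by push_cast; ring] at this

structure LHom {j : ℕ} (Y Z : LObj K j) (f : Y.X →ₗ[K] Z.X) : Prop where
  comm : ∀ i < j, ∀ x, f (Y.op i x) = Z.op i (f x)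
  filt : ∀ n, ∀ x ∈ Y.F n, f x ∈ Z.F n

theorem LHom.id {j : ℕ} (Y : LObj K j) : LHom Y Y LinearMap.id :=
  ⟨fun _ _ _ => rfl, fun _ _ h => h⟩

theorem LHom.comp {j : ℕ} {Y Z W : LObj K j} {f : Y.X →ₗ[K] Z.X} {g : Z.X →ₗ[K] W.X}
    (hg : LHom Z W g) (hf : LHom Y Z f) : LHom Y W (g ∘ₗ f) :=
  ⟨fun i hi x => by simp only [LinearMap.comp_apply, hf.comm i hi, hg.comm i hi],
    fun n x hx => hg.filt n _ (hf.filt n x hx)⟩

/-- Exactness on the `n`-th filtered piece. -/
structure PieceExact {X1 X2 X3 : Type u} [AddCommGroup X1] [Module K X1] [AddCommGroup X2]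
    [Module K X2] [AddCommGroup X3] [Module K X3] (F1 : Submodule K X1) (F2 : Submodule K X2)
    (F3 : Submodule K X3) (f : X1 →ₗ[K] X2) (g : X2 →ₗ[K] X3) : Prop where
  inj : ∀ x ∈ F1, f x = 0 → x = 0
  zero : ∀ x ∈ F1, g (f x) = 0
  mid : ∀ y ∈ F2, g y = 0 → ∃ x ∈ F1, f x = y
  surj : ∀ z ∈ F3, ∃ y ∈ F2, g y = z

structure LSES {j : ℕ} (Y1 Y2 Y3 : LObj K j) (f : Y1.X →ₗ[K] Y2.X) (g : Y2.X →ₗ[K] Y3.X) :
    Prop where
  hf : LHom Y1 Y2 f
  hg : LHom Y2 Y3 g
  ex : ∀ n, PieceExact (Y1.F n) (Y2.F n) (Y3.F n) f g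

@[reducible] def res {j : ℕ} (Y : LObj K (j + 1)) : LObj K j where
  X := Y.X
  op := Y.op
  F := Y.F
  mono := Y.mono
  comp := fun i hi => Y.comp i (by omega)
  rel := fun i l hil hl => Y.rel i l hil (by omega)

@[reducible] def tw {j : ℕ} (Y : LObj K (j + 1)) : LObj K j where
  X := Y.X
  op := fun i => Y.op i + cc K j i • LinearMap.id
  F := fun n => Y.F (n - 1)
  mono := fun n => Y.mono' (by omega)
  comp := fun i hi n x hx => by
    have h1 := Y.comp i (by omega) _ x hx
    rw [show n - 1 + 1 = n + 1 - 1 by ring] at h1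
    exact Submodule.add_mem _ h1 (Submodule.smul_mem _ _ (Y.mono' (by omega) hx))
  rel := fun i l hil hl x => by
    have h1 := Y.rel i l hil (by omega) x
    have h2 : cc K j l = 0 := cc_of_pos j (by omega)
    have h3 : dd K l i * cc K j 0 = 0 := by
      by_cases h : 3 ≤ j
      · rw [cc_of_three 0 h, mul_zero]
      · unfold dd
        rw [if_neg (by omega), zero_mul]
    simp only [LinearMap.add_apply, LinearMap.smul_apply, LinearMap.id_apply, h2, zero_smul,
      add_zero, map_add, map_smul, h1, smul_add, smul_smul, h3]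
    abel

def tri (a : ℕ) : K := ∑ l ∈ Finset.range a, (l : K)

section Ind

variable {j : ℕ} (Y : LObj K j)

noncomputable def sh : (ℕ →₀ Y.X) →ₗ[K] (ℕ →₀ Y.X) :=
  Finsupp.lsum K fun a => Finsupp.lsingle (a + 1)

noncomputable def iop (i : ℕ) : (ℕ →₀ Y.X) →ₗ[K] (ℕ →₀ Y.X) :=
  Finsupp.lsum K fun a => Finsupp.lsingle a ∘ₗ (Y.op i + ((a : K) * cc K j i) • LinearMap.id) +
    Finsupp.lsingle (a - 1) ∘ₗ
      (dd K j i • ((a : K) • Y.op 0 + (cc K j 0 * tri a) • LinearMap.id))

@[simp] theorem sh_single (a : ℕ) (y : Y.X) :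
    sh Y (Finsupp.single a y) = Finsupp.single (a + 1) y := by
  simp [sh]

theorem iop_single (i a : ℕ) (y : Y.X) :
    iop Y i (Finsupp.single a y) = Finsupp.single a (Y.op i y + ((a : K) * cc K j i) • y) +
      Finsupp.single (a - 1) (dd K j i • ((a : K) • Y.op 0 y + (cc K j 0 * tri a) • y)) := by
  simp [iop]

@[simp] theorem iop_single_zero (i : ℕ) (y : Y.X) :
    iop Y i (Finsupp.single 0 y) = Finsupp.single 0 (Y.op i y) := by
  simp [iop_single, tri]

theorem sh_apply_zero (p : ℕ →₀ Y.X) : sh Y p 0 = 0 := by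
  induction p using Finsupp.induction_linear with
  | zero => simp
  | add p q hp hq => simp [hp, hq]
  | single a y => simp

theorem sh_apply_succ (p : ℕ →₀ Y.X) (b : ℕ) : sh Y p (b + 1) = p b := by
  induction p using Finsupp.induction_linear with
  | zero => simp
  | add p q hp hq => simp [hp, hq]
  | single a y => simp [Finsupp.single_apply]

theorem iop_apply (i : ℕ) (p : ℕ →₀ Y.X) (b : ℕ) :
    iop Y i p b = Y.op i (p b) + ((b : K) * cc K j i) • p b +
      dd K j i • (((b + 1 : ℕ) : K) • Y.op 0 (p (b + 1)) + (cc K j 0 * tri (b + 1)) • p (b + 1)) := by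
  induction p using Finsupp.induction_linear with
  | zero => simp
  | add p q hp hq =>
    simp only [map_add, Finsupp.add_apply, hp, hq, smul_add]
    abel
  | single a y =>
    rw [iop_single]
    simp only [Finsupp.add_apply, Finsupp.single_apply]
    rcases a with _ | a
    · by_cases hb : 0 = b
      · subst hb
        simp [tri]
      · simp [hb]
    · by_cases hb : a + 1 = b
      · subst hb
        simp
      · by_cases hb' : a = b
        · subst hb'
          simp
        · simp [hb, hb']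

theorem iop_sh (i : ℕ) (p : ℕ →₀ Y.X) :
    iop Y i (sh Y p) = sh Y (iop Y i p) + cc K j i • sh Y p + dd K j i • iop Y 0 p := by
  ext b
  rcases b with _ | b
  · simp [iop_apply, sh_apply_zero, sh_apply_succ, dd_zero, tri]
  · simp only [iop_apply, sh_apply_succ, Finsupp.add_apply, Finsupp.smul_apply, dd_zero, tri,
      Finset.sum_range_succ]
    push_cast
    module

theorem ind_induction {P : (ℕ →₀ Y.X) → Prop} (h0 : ∀ y, P (Finsupp.single 0 y))
    (hs : ∀ p, P p → P (sh Y p)) (hadd : ∀ p q, P p → P q → P (p + q)) (p : ℕ →₀ Y.X) : P p := by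
  induction p using Finsupp.induction_linear with
  | zero => simpa using h0 0
  | add p q hp hq => exact hadd p q hp hq
  | single a y =>
    induction a with
    | zero => exact h0 y
    | succ a ih => simpa using hs _ ih

def indF (n : ℤ) : Submodule K (ℕ →₀ Y.X) where
  carrier := {p | ∀ a : ℕ, p a ∈ Y.F (n - a)}
  add_mem' := fun hp hq a => Submodule.add_mem _ (hp a) (hq a)
  zero_mem' := fun _ => Submodule.zero_mem _
  smul_mem' := fun c _ hp a => Submodule.smul_mem _ c (hp a)

theorem mem_indF {n : ℤ} {p : ℕ →₀ Y.X} : p ∈ indF Y n ↔ ∀ a : ℕ, p a ∈ Y.F (n - a) := Iff.rfl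

theorem sh_mem {n : ℤ} {p : ℕ →₀ Y.X} (hp : p ∈ indF Y n) : sh Y p ∈ indF Y (n + 1) := by
  rintro (_ | a)
  · rw [sh_apply_zero]
    exact Submodule.zero_mem _
  · rw [sh_apply_succ]
    have := hp a
    rwa [show n - a = n + 1 - ((a + 1 : ℕ) : ℤ) by push_cast; ring] at this

theorem single_mem {n : ℤ} {a : ℕ} {y : Y.X} (hy : y ∈ Y.F (n - a)) :
    Finsupp.single a y ∈ indF Y n := by
  intro b
  rw [Finsupp.single_apply]
  split_ifs with h
  · subst h
    exact hy
  · exact Submodule.zero_mem _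

theorem iop_rel (i l : ℕ) (hil : i < l) (hl : l < j) (p : ℕ →₀ Y.X) :
    iop Y i (iop Y l p) = iop Y l (iop Y i p) + cc K l i • iop Y l p + dd K l i • iop Y 0 p := by
  induction p using ind_induction with
  | h0 y =>
    simp only [iop_single_zero, Y.rel i l hil hl, Finsupp.single_add, Finsupp.smul_single]
  | hadd p q hp hq =>
    simp only [map_add, hp, hq, smul_add]
    abel
  | hs p hp =>
    by_cases h : 3 ≤ j
    · simp only [iop_sh, cc_of_three _ h, dd_of_three _ h, zero_smul, add_zero, hp, map_add,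
        map_smul]
    · obtain rfl : j = 2 := by omega
      obtain rfl : l = 1 := by omega
      obtain rfl : i = 0 := by omega
      simp only [iop_sh, map_add, map_smul, hp]
      simp only [cc, dd]
      norm_num
      module

@[reducible] noncomputable def Ind : LObj K (j + 1) where
  X := ℕ →₀ Y.X
  op := fun i => if i = j then sh Y else iop Y i
  F := indF Y
  mono := fun n p hp a => Y.mono' (by omega) (hp a)
  comp := fun i hi n p hp => by
    split_ifs with h
    · exact sh_mem Y hp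
    · intro b
      rw [iop_apply]
      have h1 := Y.comp i (by omega) _ _ (hp b)
      have h2 := Y.comp 0 (by omega) _ _ (hp (b + 1))
      refine Submodule.add_mem _ (Submodule.add_mem _ (Y.mono' (by omega) h1)
        (Submodule.smul_mem _ _ (Y.mono' (by omega) (hp b)))) (Submodule.smul_mem _ _
        (Submodule.add_mem _ (Submodule.smul_mem _ _ (Y.mono' (by omega) h2))
        (Submodule.smul_mem _ _ (Y.mono' (by omega) (hp (b + 1))))))
  rel := fun i l hil hl p => by
    rw [if_neg (by omega : ¬ i = j), if_neg (by omega : ¬ 0 = j)]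
    split_ifs with h
    · subst h
      exact iop_sh Y i p
    · exact iop_rel Y i l hil (by omega) p

theorem Ind_op_top : (Ind Y).op j = sh Y := if_pos rfl

theorem Ind_op_lt {i : ℕ} (hi : i < j) : (Ind Y).op i = iop Y i := if_neg (by omega)

/-- The unit of the adjunction. -/
noncomputable def inc : Y.X →ₗ[K] (res (Ind Y)).X := Finsupp.lsingle 0

theorem inc_hom : LHom Y (res (Ind Y)) (inc Y) where
  comm := fun i hi x => by
    change _ = (Ind Y).op i _
    rw [Ind_op_lt Y hi]
    exact (iop_single_zero Y i x).symm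
  filt := fun n x hx => single_mem Y (a := 0) (by simpa using hx)

variable {Y}

noncomputable def lift (Z : LObj K (j + 1)) (ψ : Y.X →ₗ[K] Z.X) : (ℕ →₀ Y.X) →ₗ[K] Z.X :=
  Finsupp.lsum K fun a => (Z.op j ^ a) ∘ₗ ψ

theorem lift_single (Z : LObj K (j + 1)) (ψ : Y.X →ₗ[K] Z.X) (a : ℕ) (y : Y.X) :
    lift Z ψ (Finsupp.single a y) = (Z.op j ^ a) (ψ y) := by
  simp [lift]

theorem lift_zero (Z : LObj K (j + 1)) (ψ : Y.X →ₗ[K] Z.X) (y : Y.X) :
    lift Z ψ (Finsupp.single 0 y) = ψ y := by
  simp [lift_single]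

theorem lift_sh (Z : LObj K (j + 1)) (ψ : Y.X →ₗ[K] Z.X) (p : ℕ →₀ Y.X) :
    lift Z ψ (sh Y p) = Z.op j (lift Z ψ p) := by
  induction p using Finsupp.induction_linear with
  | zero => simp
  | add p q hp hq => simp [hp, hq]
  | single a y => simp [lift_single, pow_succ']

theorem pow_mem (Z : LObj K (j + 1)) (a : ℕ) {n : ℤ} {x : Z.X} (hx : x ∈ Z.F (n - a)) :
    (Z.op j ^ a) x ∈ Z.F n := by
  induction a generalizing n with
  | zero => simpa using hx
  | succ a ih =>
    have h1 : (Z.op j ^ a) x ∈ Z.F (n - 1) := ih (Z.mono' (by push_cast; omega) hx)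
    have h2 := Z.comp j (by omega) _ _ h1
    rw [pow_succ']
    exact Z.mono' (by omega) h2

theorem lift_hom {Z : LObj K (j + 1)} {ψ : Y.X →ₗ[K] Z.X} (h : LHom Y (res Z) ψ) :
    LHom (Ind Y) Z (lift Z ψ) where
  comm := fun i hi p => by
    by_cases hij : i = j
    · subst hij
      rw [Ind_op_top]
      exact lift_sh Z ψ p
    · have hi' : i < j := by omega
      rw [Ind_op_lt Y hi']
      have h0 : ∀ p, lift Z ψ (iop Y 0 p) = Z.op 0 (lift Z ψ p) := by
        intro p
        induction p using ind_induction with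
        | h0 y => rw [iop_single_zero, lift_zero, lift_zero, h.comm 0 (by omega)]
        | hadd p q hp hq => simp only [map_add, hp, hq]
        | hs p hp =>
          rw [iop_sh, lift_sh, Z.rel 0 j (by omega) (by omega)]
          simp only [map_add, map_smul, lift_sh, hp]
      induction p using ind_induction with
      | h0 y => rw [iop_single_zero, lift_zero, lift_zero, h.comm i hi']
      | hadd p q hp hq => simp only [map_add, hp, hq]
      | hs p hp =>
        rw [iop_sh, lift_sh, Z.rel i j hi' (by omega)]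
        simp only [map_add, map_smul, lift_sh, hp, h0]
  filt := fun n p hp => by
    change Finsupp.sum p _ ∈ _
    refine Submodule.sum_mem _ fun a _ => ?_
    exact pow_mem Z a (h.filt _ _ (hp a))

theorem ind_uniq {Z : LObj K (j + 1)} {φ : (ℕ →₀ Y.X) →ₗ[K] Z.X} (h : LHom (Ind Y) Z φ)
    (h0 : ∀ y, φ (Finsupp.single 0 y) = 0) (p : ℕ →₀ Y.X) : φ p = 0 := by
  induction p using ind_induction with
  | h0 y => exact h0 y
  | hadd p q hp hq => rw [map_add, hp, hq, add_zero]
  | hs p hp =>
    have := h.comm j (by omega) p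
    rw [Ind_op_top] at this
    rw [this, hp, map_zero]

noncomputable def imap {Z : LObj K j} (f : Y.X →ₗ[K] Z.X) : (ℕ →₀ Y.X) →ₗ[K] (ℕ →₀ Z.X) :=
  Finsupp.mapRange.linearMap f

@[simp] theorem imap_apply {Z : LObj K j} (f : Y.X →ₗ[K] Z.X) (p : ℕ →₀ Y.X) (a : ℕ) :
    imap f p a = f (p a) := by
  simp [imap]

theorem imap_hom {Z : LObj K j} {f : Y.X →ₗ[K] Z.X} (h : LHom Y Z f) :
    LHom (Ind Y) (Ind Z) (imap f) where
  comm := fun i hi p => by
    by_cases hij : i = j
    · subst hij
      rw [Ind_op_top, Ind_op_top]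
      ext (_ | a)
      · simp [sh_apply_zero]
      · simp [sh_apply_succ]
    · have hi' : i < j := by omega
      rw [Ind_op_lt Y hi', Ind_op_lt Z hi']
      ext a
      simp only [imap_apply, iop_apply, map_add, map_smul, h.comm i hi', h.comm 0 (by omega)]
  filt := fun n p hp a => by
    rw [imap_apply]
    exact h.filt _ _ (hp a)

theorem finsupp_choose {V W : Type u} [AddCommGroup V] [AddCommGroup W] (q : ℕ →₀ W)
    (R : ℕ → V → Prop) (h0 : ∀ a, q a = 0 → R a 0) (h : ∀ a, ∃ v, R a v) :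
    ∃ p : ℕ →₀ V, ∀ a, R a (p a) := by
  classical
  choose v hv using h
  refine ⟨Finsupp.onFinset q.support (fun a => if q a = 0 then 0 else v a) ?_, fun a => ?_⟩
  · intro a ha
    rw [Finsupp.mem_support_iff]
    intro h
    exact ha (if_pos h)
  · rw [Finsupp.onFinset_apply]
    split_ifs with h
    · exact h0 a h
    · exact hv a

theorem LSES.ind {Y1 Y2 Y3 : LObj K j} {f : Y1.X →ₗ[K] Y2.X} {g : Y2.X →ₗ[K] Y3.X}
    (h : LSES Y1 Y2 Y3 f g) : LSES (Ind Y1) (Ind Y2) (Ind Y3) (imap f) (imap g) where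
  hf := imap_hom h.hf
  hg := imap_hom h.hg
  ex := fun n =>
    { inj := fun p hp h0 => by
        ext a
        exact (h.ex _).inj _ (hp a) (by rw [← imap_apply, h0]; rfl)
      zero := fun p hp => by
        ext a
        rw [imap_apply, imap_apply]
        exact (h.ex _).zero _ (hp a)
      mid := fun q hq h0 => by
        obtain ⟨p, hp⟩ := finsupp_choose q (fun a v => v ∈ Y1.F (n - a) ∧ f v = q a)
          (fun a ha => ⟨Submodule.zero_mem _, by rw [map_zero, ha]⟩)
          (fun a => (h.ex _).mid _ (hq a) (by rw [← imap_apply, h0]; rfl))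
        exact ⟨p, fun a => (hp a).1, by ext a; rw [imap_apply, (hp a).2]⟩
      surj := fun q hq => by
        obtain ⟨p, hp⟩ := finsupp_choose q (fun a v => v ∈ Y2.F (n - a) ∧ g v = q a)
          (fun a ha => ⟨Submodule.zero_mem _, by rw [map_zero, ha]⟩)
          (fun a => (h.ex _).surj _ (hq a))
        exact ⟨p, fun a => (hp a).1, by ext a; rw [imap_apply, (hp a).2]⟩ }

end Ind

/-- Downward recurrence. -/
theorem recur {V : Type u} [AddCommGroup V] [Module K V] (G : ℕ → Submodule K V)
    (N : ℕ → V →ₗ[K] V) (hN : ∀ a, ∀ v ∈ G (a + 1), N a v ∈ G a) (p : ℕ → V) (B : ℕ)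
    (hB : ∀ a, B ≤ a → p a = 0) (hp : ∀ a, p a - N a (p (a + 1)) ∈ G a) (a : ℕ) : p a ∈ G a := by
  by_cases h : B ≤ a
  · rw [hB a h]
    exact Submodule.zero_mem _
  · have ih := recur G N hN p B hB hp (a + 1)
    have := Submodule.add_mem _ (hp a) (hN a _ ih)
    simpa using this
termination_by B - a

theorem finsupp_bound {V : Type u} [AddCommGroup V] (p : ℕ →₀ V) :
    ∃ B, ∀ a, B ≤ a → p a = 0 := by
  refine ⟨p.support.sup id + 1, fun a ha => ?_⟩
  by_contra h
  have := Finset.le_sup (f := id) (Finsupp.mem_support_iff.2 h)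
  simp only [id] at this
  omega

section Fund

variable {j : ℕ} (Y : LObj K (j + 1))

noncomputable def fpsi : Y.X →ₗ[K] (ℕ →₀ Y.X) :=
  Finsupp.lsingle 1 - Finsupp.lsingle 0 ∘ₗ Y.op j

noncomputable def ff : (ℕ →₀ Y.X) →ₗ[K] (ℕ →₀ Y.X) :=
  sh (res Y) - Finsupp.mapRange.linearMap (Y.op j)

noncomputable def fg : (ℕ →₀ Y.X) →ₗ[K] Y.X := lift (Y := res Y) Y LinearMap.id

theorem ff_single (a : ℕ) (y : Y.X) :
    ff Y (Finsupp.single a y) = Finsupp.single (a + 1) y - Finsupp.single a (Y.op j y) := by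
  simp [ff]

theorem ff_apply_succ (p : ℕ →₀ Y.X) (a : ℕ) : ff Y p (a + 1) = p a - Y.op j (p (a + 1)) := by
  simp [ff, sh_apply_succ]

theorem fg_hom : LHom (Ind (res Y)) Y (fg Y) := lift_hom (LHom.id _)

theorem ff_eq : ff Y = lift (Y := tw Y) (Ind (res Y)) (fpsi Y) := by
  ext1 a
  ext1 y
  simp only [LinearMap.comp_apply, Finsupp.lsingle_apply]
  rw [lift_single, Ind_op_top, ff_single]
  induction a with
  | zero => simp [fpsi]
  | succ a ih => rw [pow_succ', Module.End.mul_apply, ← ih, map_sub, sh_single, sh_single]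

theorem ff_hom : LHom (Ind (tw Y)) (Ind (res Y)) (ff Y) := by
  rw [ff_eq]
  refine lift_hom ⟨fun i hi y => ?_, fun n y hy => ?_⟩
  · change _ = (Ind (res Y)).op i _
    rw [Ind_op_lt _ hi]
    have h1 : ∀ z : Y.X, fpsi Y z =
        sh (res Y) (Finsupp.single 0 z) - Finsupp.single 0 (Y.op j z) := by
      intro z
      simp [fpsi]
    rw [h1, h1, map_sub, iop_sh, iop_single_zero, iop_single_zero, iop_single_zero]
    simp only [LinearMap.add_apply, LinearMap.smul_apply, LinearMap.id_apply, map_add, map_smul,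
      Y.rel i j hi (by omega), Finsupp.single_add, ← Finsupp.smul_single]
    abel
  · refine Submodule.sub_mem _ (single_mem (res Y) (a := 1) (by simpa using hy))
      (single_mem (res Y) (a := 0) ?_)
    exact Y.mono' (by omega) (Y.comp j (by omega) _ _ hy)

theorem fg_single (a : ℕ) (y : Y.X) : fg Y (Finsupp.single a y) = (Y.op j ^ a) y :=
  lift_single (Y := res Y) Y LinearMap.id a y

theorem fg_ff (p : ℕ →₀ Y.X) : fg Y (ff Y p) = 0 := by
  induction p using Finsupp.induction_linear with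
  | zero => simp
  | add p q hp hq => simp [hp, hq]
  | single a y => simp [ff_single, fg_single, pow_succ]

theorem ff_range (q : ℕ →₀ Y.X) : ∃ p, ff Y p = q - Finsupp.single 0 (fg Y q) := by
  induction q using Finsupp.induction_linear with
  | zero => exact ⟨0, by simp⟩
  | add p q hp hq =>
    obtain ⟨p', hp⟩ := hp
    obtain ⟨q', hq⟩ := hq
    exact ⟨p' + q', by rw [map_add, hp, hq, map_add, Finsupp.single_add]; abel⟩
  | single a y =>
    induction a generalizing y with
    | zero => exact ⟨0, by simp [fg_single]⟩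
    | succ a ih =>
      obtain ⟨p, hp⟩ := ih (Y.op j y)
      refine ⟨p + Finsupp.single a y, ?_⟩
      rw [map_add, hp, ff_single, fg_single, fg_single, pow_succ, Module.End.mul_apply]
      abel

theorem ff_inj (p : ℕ →₀ Y.X) (h : ff Y p = 0) : p = 0 := by
  obtain ⟨B, hB⟩ := finsupp_bound p
  ext a
  exact recur (fun _ => ⊥) (fun _ => Y.op j) (fun a v hv => by simp_all) p B hB
    (fun a => by rw [← ff_apply_succ, h]; rfl) a

theorem ff_strict (p : ℕ →₀ Y.X) (n : ℤ) (h : ff Y p ∈ indF (res Y) n) : p ∈ indF (tw Y) n := by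
  obtain ⟨B, hB⟩ := finsupp_bound p
  intro a
  refine recur (fun a => Y.F (n - a - 1)) (fun _ => Y.op j) (fun a v hv => ?_) p B hB
    (fun a => ?_) a
  · exact Y.mono' (by push_cast; omega) (Y.comp j (by omega) _ _ hv)
  · rw [← ff_apply_succ]
    exact Y.mono' (by push_cast; omega) (h (a + 1))

theorem fund : LSES (Ind (tw Y)) (Ind (res Y)) Y (ff Y) (fg Y) where
  hf := ff_hom Y
  hg := fg_hom Y
  ex := fun n =>
    { inj := fun p _ h => ff_inj Y p h
      zero := fun p _ => fg_ff Y p
      mid := fun q hq h0 => by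
        obtain ⟨p, hp⟩ := ff_range Y q
        rw [h0, Finsupp.single_zero, sub_zero] at hp
        exact ⟨p, ff_strict Y p n (hp ▸ hq), hp⟩
      surj := fun y hy =>
        ⟨Finsupp.single 0 y, single_mem (res Y) (a := 0) (by simpa using hy), by
          simp [fg_single]⟩ }

end Fund

end Vale.Agent.P176
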