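import Vale.Agent.P176.Hat
import Vale.Agent.P176.Ext

/- The finite-dimensional algebra and the exact functor to its modules. -/

namespace Vale.Agent.P176

open CategoryTheory

universe u

variable {K : Type u} [Field K]

/-- An object of level 0: a space filtered by one subspace sitting in degrees at least `d`. -/
@[reducible] def triv0 (V : Type u) [AddCommGroup V] [Module K V] (F : ℤ → Submodule K V)
    (hF : ∀ n, F n ≤ F (n + 1)) : LObj K 0 where
  X := V
  op := fun _ => 0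
  F := F
  mono := hF
  comp := fun i hi => absurd hi (by omega)
  rel := fun i l _ hl => absurd hl (by omega)

noncomputable abbrev Ind4 (Y : LObj K 0) : LObj K 4 := Ind (Ind (Ind (Ind Y)))

noncomputable abbrev Psi (Y : LObj K 0) : GObj K := hat (Ind4 Y)

noncomputable def inc4 (Y : LObj K 0) (y : Y.X) : (Psi Y).L.X :=
  (0, Finsupp.single 0 (Finsupp.single 0 (Finsupp.single 0 (Finsupp.single 0 y))))

theorem inc4_mem (Y : LObj K 0) {n : ℤ} {y : Y.X} (hy : y ∈ Y.F n) : inc4 Y y ∈ (Psi Y).L.F n :=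
  ⟨Submodule.zero_mem _, (inc_hom _).filt _ _ ((inc_hom _).filt _ _ ((inc_hom _).filt _ _
    ((inc_hom _).filt _ _ hy)))⟩

noncomputable def inc4l (Y : LObj K 0) : Y.X →ₗ[K] (Psi Y).L.X :=
  LinearMap.inr K _ _ ∘ₗ Finsupp.lsingle 0 ∘ₗ Finsupp.lsingle 0 ∘ₗ Finsupp.lsingle 0 ∘ₗ
    Finsupp.lsingle 0

theorem inc4l_apply (Y : LObj K 0) (y : Y.X) : inc4l Y y = inc4 Y y := rfl

theorem psi_ex (Y : LObj K 0) (Z : GObj K) (ψ : Y.X →ₗ[K] Z.L.X)
    (h : ∀ n, ∀ y ∈ Y.F n, ψ y ∈ Z.L.F n) :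
    ∃ φ, GHom (Psi Y) Z φ ∧ ∀ y, φ (inc4 Y y) = ψ y := by
  have h0 : LHom Y (res (res (res (res Z.L)))) ψ := ⟨fun i hi => absurd hi (by omega), h⟩
  refine ⟨_, hlift_hom Z (lift_hom (lift_hom (lift_hom (lift_hom h0)))), fun y => ?_⟩
  unfold inc4
  rw [hlift_inr, lift_zero, lift_zero, lift_zero, lift_zero]

theorem LHom.res {j : ℕ} {Y Z : LObj K (j + 1)} {f : Y.X →ₗ[K] Z.X} (h : LHom Y Z f) :
    LHom (res Y) (res Z) f := ⟨fun i hi => h.comm i (by omega), h.filt⟩

theorem LHom.inc {j : ℕ} {Y : LObj K j} {Z : LObj K (j + 1)} {f : (ℕ →₀ Y.X) →ₗ[K] Z.X}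
    (h : LHom (Ind Y) Z f) : LHom Y (P176.res Z) (f ∘ₗ inc Y) := h.res.comp (inc_hom Y)

theorem psi_uniq {Y : LObj K 0} {Z : GObj K} {φ : (Psi Y).L.X →ₗ[K] Z.L.X}
    (h : GHom (Psi Y) Z φ) (h0 : ∀ y, φ (inc4 Y y) = 0) : φ = 0 := by
  refine LinearMap.ext fun z => ?_
  have h4 := h.l.comp inr_hom
  refine hat_uniq h (ind_uniq h4 (ind_uniq h4.inc (ind_uniq h4.inc.inc
    (ind_uniq h4.inc.inc.inc h0)))) z

def HomS (Y Z : GObj K) : Submodule K (Y.L.X →ₗ[K] Z.L.X) where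
  carrier := {f | GHom Y Z f}
  add_mem' := fun {f g} hf hg =>
    ⟨⟨fun i hi x => by simp [hf.l.comm i hi, hg.l.comm i hi],
      fun n x hx => Submodule.add_mem _ (hf.l.filt n x hx) (hg.l.filt n x hx)⟩,
      fun y => by
        rw [LinearMap.add_apply, hf.nu, hg.nu, ← map_add]
        rfl⟩
  zero_mem' := ⟨⟨fun i hi x => by simp, fun n x hx => Submodule.zero_mem _⟩, fun y => by
    rw [LinearMap.zero_apply, ← map_zero Z.nu]
    rfl⟩
  smul_mem' := fun c f hf =>
    ⟨⟨fun i hi x => by simp [hf.l.comm i hi],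
      fun n x hx => Submodule.smul_mem _ c (hf.l.filt n x hx)⟩,
      fun y => by
        rw [LinearMap.smul_apply, hf.nu, ← map_smul]
        rfl⟩

variable (K) in
def Y0 : LObj K 0 :=
  triv0 (Fin 5 → K) (fun n =>
    { carrier := {v | ∀ d : Fin 5, n < (d : ℕ) → v d = 0}
      add_mem' := fun ha hb d hd => by simp [ha d hd, hb d hd]
      zero_mem' := fun _ _ => rfl
      smul_mem' := fun c v hv d hd => by simp [hv d hd] })
    (fun n v hv d hd => hv d (by omega))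

variable (K) in
noncomputable def PP : GObj K := Psi (Y0 K)

noncomputable def gen (d : Fin 5) : (PP K).L.X := inc4 (Y0 K) (Pi.single d 1 : Fin 5 → K)

theorem gen_mem (d : Fin 5) : gen d ∈ (PP K).L.F (d : ℕ) := by
  refine inc4_mem (Y0 K) ?_
  intro e he
  refine Pi.single_eq_of_ne ?_ _
  rintro rfl
  omega

theorem PP_ex (Z : GObj K) (v : Fin 5 → Z.L.X) (hv : ∀ d : Fin 5, v d ∈ Z.L.F (d : ℕ)) :
    ∃ φ, GHom (PP K) Z φ ∧ ∀ d, φ (gen d) = v d := by
  obtain ⟨φ, h1, h2⟩ := psi_ex (Y0 K) Z (Fintype.linearCombination K v) (fun n y hy => by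
    change ∑ d, (y : Fin 5 → K) d • v d ∈ _
    refine Submodule.sum_mem _ fun d _ => ?_
    by_cases hd : n < (d : ℕ)
    · rw [hy d hd, zero_smul]
      exact Submodule.zero_mem _
    · exact Submodule.smul_mem _ _ (Z.L.mono' (by omega) (hv d)))
  refine ⟨φ, h1, fun d => (h2 _).trans ?_⟩
  exact (Fintype.linearCombination_apply_single K v d 1).trans (one_smul _ _)

theorem PP_uniq {Z : GObj K} {φ : (PP K).L.X →ₗ[K] Z.L.X} (h : GHom (PP K) Z φ)
    (h0 : ∀ d, φ (gen d) = 0) : φ = 0 := by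
  refine psi_uniq h fun y => ?_
  have : (φ ∘ₗ inc4l (Y0 K) : (Fin 5 → K) →ₗ[K] Z.L.X) = 0 := by
    refine LinearMap.pi_ext' fun d => LinearMap.ext_ring ?_
    exact h0 d
  exact LinearMap.congr_fun this y

variable (K) in
noncomputable def EndA : Subalgebra K (Module.End K (PP K).L.X) where
  carrier := {f | GHom (PP K) (PP K) f}
  mul_mem' := fun hf hg => hf.comp hg
  add_mem' := fun hf hg => (HomS (PP K) (PP K)).add_mem hf hg
  algebraMap_mem' := fun c => (HomS (PP K) (PP K)).smul_mem c (GHom.id _)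

variable (K) in
/-- The algebra. -/
abbrev AA : Type u := (EndA K)ᵐᵒᵖ

def Win (Z : GObj K) : Type u := HomS (PP K) Z

noncomputable instance (Z : GObj K) : AddCommGroup (Win Z) :=
  inferInstanceAs (AddCommGroup (HomS (PP K) Z))

noncomputable instance (Z : GObj K) : Module K (Win Z) :=
  inferInstanceAs (Module K (HomS (PP K) Z))

def Win.val {Z : GObj K} (φ : Win Z) : (PP K).L.X →ₗ[K] Z.L.X := Subtype.val φ

theorem Win.hom {Z : GObj K} (φ : Win Z) : GHom (PP K) Z φ.val := Subtype.property φ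

def Win.mk {Z : GObj K} (φ : (PP K).L.X →ₗ[K] Z.L.X) (h : GHom (PP K) Z φ) : Win Z := ⟨φ, h⟩

theorem Win.ext {Z : GObj K} {φ ψ : Win Z} (h : φ.val = ψ.val) : φ = ψ := Subtype.ext h

@[simp] theorem Win.val_mk {Z : GObj K} (φ : (PP K).L.X →ₗ[K] Z.L.X) (h : GHom (PP K) Z φ) :
    (Win.mk φ h).val = φ := rfl

@[simp] theorem Win.val_add {Z : GObj K} (φ ψ : Win Z) : (φ + ψ).val = φ.val + ψ.val := rfl

@[simp] theorem Win.val_sub {Z : GObj K} (φ ψ : Win Z) : (φ - ψ).val = φ.val - ψ.val := rfl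

@[simp] theorem Win.val_zero {Z : GObj K} : (0 : Win Z).val = 0 := rfl

@[simp] theorem Win.val_smul {Z : GObj K} (c : K) (φ : Win Z) : (c • φ).val = c • φ.val := rfl

theorem Win.eq_zero {Z : GObj K} {φ : Win Z} (h : ∀ d, φ.val (gen d) = 0) : φ = 0 :=
  Win.ext (PP_uniq φ.hom h)

theorem Win.gen_mem {Z : GObj K} (φ : Win Z) (d : Fin 5) : φ.val (gen d) ∈ Z.L.F (d : ℕ) :=
  φ.hom.l.filt _ _ (P176.gen_mem d)

noncomputable instance (Z : GObj K) : SMul (AA K) (Win Z) :=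
  ⟨fun a φ => Win.mk (φ.val ∘ₗ (a.unop : Module.End K (PP K).L.X)) (φ.hom.comp a.unop.2)⟩

theorem Win.val_asmul {Z : GObj K} (a : AA K) (φ : Win Z) :
    (a • φ).val = φ.val ∘ₗ (a.unop : Module.End K (PP K).L.X) := rfl

noncomputable instance (Z : GObj K) : Module (AA K) (Win Z) where
  one_smul := fun _ => rfl
  mul_smul := fun _ _ _ => rfl
  smul_zero := fun _ => rfl
  smul_add := fun _ _ _ => rfl
  add_smul := fun _ _ _ => Win.ext (LinearMap.comp_add _ _ _)
  zero_smul := fun _ => Win.ext (LinearMap.comp_zero _)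

instance (Z : GObj K) : IsScalarTower K (AA K) (Win Z) :=
  ⟨fun _ _ _ => Win.ext (LinearMap.comp_smul _ _ _)⟩

noncomputable def WinM (Z : GObj K) : ModuleCat.{u} (AA K) := ModuleCat.of (AA K) (Win Z)

noncomputable def wmap {Y Z : GObj K} {f : Y.L.X →ₗ[K] Z.L.X} (h : GHom Y Z f) :
    Win Y →ₗ[AA K] Win Z where
  toFun := fun φ => Win.mk (f ∘ₗ φ.val) (h.comp φ.hom)
  map_add' := fun _ _ => Win.ext (LinearMap.comp_add _ _ _)
  map_smul' := fun _ _ => rfl

theorem wmap_val {Y Z : GObj K} {f : Y.L.X →ₗ[K] Z.L.X} (h : GHom Y Z f) (φ : Win Y) :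
    (wmap h φ).val = f ∘ₗ φ.val := rfl

theorem win_se {Z1 Z2 Z3 : GObj K} {f : Z1.L.X →ₗ[K] Z2.L.X} {g : Z2.L.X →ₗ[K] Z3.L.X}
    (hf : GHom Z1 Z2 f) (hg : GHom Z2 Z3 g)
    (h : ∀ n : ℤ, 0 ≤ n → PieceExact (Z1.L.F n) (Z2.L.F n) (Z3.L.F n) f g) :
    SE (WinM Z1) (WinM Z2) (WinM Z3) := by
  have h' : ∀ d : Fin 5, PieceExact (Z1.L.F (d : ℕ)) (Z2.L.F (d : ℕ)) (Z3.L.F (d : ℕ)) f g :=
    fun d => h _ (by omega)
  have hz : ∀ φ, wmap hg (wmap hf φ) = 0 := fun φ =>
    Win.eq_zero fun d => (h' d).zero _ (φ.gen_mem d)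
  refine ⟨ModuleCat.ofHom (wmap hf), ModuleCat.ofHom (wmap hg), ?_, ?_⟩
  · ext φ
    exact hz φ
  · refine ModuleCat.shortComplex_shortExact _ ?_ ?_ ?_
    · intro (φ : Win Z2)
      constructor
      · intro h0
        have h1 : ∀ d, g (φ.val (gen d)) = 0 := fun d =>
          LinearMap.congr_fun (congrArg Win.val h0) (gen d)
        choose v hv hv' using fun d => (h' d).mid _ (φ.gen_mem d) (h1 d)
        obtain ⟨ψ, h2, h3⟩ := PP_ex Z1 v hv
        refine ⟨Win.mk ψ h2, ?_⟩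
        change wmap hf _ = φ
        rw [← sub_eq_zero]
        refine Win.eq_zero fun d => ?_
        simp [wmap_val, h3, hv']
      · rintro ⟨ψ, rfl⟩
        exact hz ψ
    · change Function.Injective (wmap hf)
      rw [injective_iff_map_eq_zero]
      intro φ h0
      exact Win.eq_zero fun d => (h' d).inj _ (φ.gen_mem d)
        (LinearMap.congr_fun (congrArg Win.val h0) (gen d))
    · intro (φ : Win Z3)
      choose v hv hv' using fun d => (h' d).surj _ (φ.gen_mem d)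
      obtain ⟨ψ, h2, h3⟩ := PP_ex Z2 v hv
      refine ⟨Win.mk ψ h2, ?_⟩
      change wmap hg _ = φ
      rw [← sub_eq_zero]
      refine Win.eq_zero fun d => ?_
      simp [wmap_val, h3, hv']

theorem win_subsingleton {Z : GObj K} (h : ∀ n, ∀ x ∈ Z.L.F n, x = 0) :
    Subsingleton (WinM Z) := by
  change Subsingleton (Win Z)
  exact subsingleton_of_forall_eq 0 fun φ => Win.eq_zero fun d => h _ _ (φ.gen_mem d)

theorem win_finite {Z : GObj K} (h : ∀ n, FiniteDimensional K (Z.L.F n)) :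
    FiniteDimensional K (Win Z) := by
  let e : Win Z →ₗ[K] (∀ d : Fin 5, Z.L.F (d : ℕ)) :=
    { toFun := fun φ d => ⟨φ.val (gen d), φ.gen_mem d⟩
      map_add' := fun _ _ => rfl
      map_smul' := fun _ _ => rfl }
  refine FiniteDimensional.of_injective e ?_
  rw [injective_iff_map_eq_zero]
  intro φ h0
  exact Win.eq_zero fun d => congrArg Subtype.val (congrFun h0 d)

noncomputable def winPP : AA K ≃ₗ[AA K] Win (PP K) where
  toFun := fun a => Win.mk (a.unop : Module.End K (PP K).L.X) a.unop.2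
  invFun := fun φ => MulOpposite.op ⟨φ.val, φ.hom⟩
  map_add' := fun _ _ => rfl
  map_smul' := fun _ _ => rfl
  left_inv := fun _ => rfl
  right_inv := fun _ => rfl

theorem pd_PP : PD (WinM (PP K)) 1 := by
  have : Module.Projective (AA K) (Win (PP K)) := Module.Projective.of_equiv winPP
  have : Projective (WinM (PP K)) := ModuleCat.projective_of_categoryTheory_projective (ModuleCat.of (AA K) (Win (PP K)))
  infer_instance

end Vale.Agent.P176
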